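import Vale.Agent.Lib.P159.Series

/-!
# The integral representation of the series `Z`
-/

namespace Vale.Agent.Lib.P159

open MeasureTheory Set

set_option linter.unusedSectionVars false

variable {V : Type*} [DecidableEq V] (Λ : Finset V)

/-- Pairing of a charge with a spin configuration. -/
noncomputable def dot (p : V → ℤ) (θ : Λ → ℝ) : ℝ := ∑ x : Λ, (p x : ℝ) * θ x

/-- The integration domain. -/
def cube : Set (Λ → ℝ) := Set.pi univ (fun _ => Icc 0 (2 * Real.pi))

lemma isCompact_cube : IsCompact (cube Λ) :=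
  isCompact_univ_pi (fun _ => isCompact_Icc)

lemma dot_add (p q : V → ℤ) (θ : Λ → ℝ) : dot Λ (p + q) θ = dot Λ p θ + dot Λ q θ := by
  simp only [dot, Pi.add_apply, Int.cast_add, add_mul, Finset.sum_add_distrib]

lemma dot_sub (p q : V → ℤ) (θ : Λ → ℝ) : dot Λ (p - q) θ = dot Λ p θ - dot Λ q θ := by
  simp only [dot, Pi.sub_apply, Int.cast_sub, sub_mul, Finset.sum_sub_distrib]

lemma continuous_dot (p : V → ℤ) : Continuous (dot Λ p) := by
  unfold dot
  fun_prop

lemma dot_chg (x : V) (hx : x ∈ Λ) (θ : Λ → ℝ) : dot Λ (chg x) θ = θ ⟨x, hx⟩ := by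
  unfold dot
  rw [Finset.sum_eq_single (⟨x, hx⟩ : Λ)]
  · simp [chg]
  · intro y _ hy
    have : (y : V) ≠ x := fun h => hy (Subtype.ext h)
    simp [chg, this]
  · intro h; exact absurd (Finset.mem_univ _) h

lemma integral_factor (k : ℤ) :
    ∫ t in Icc (0:ℝ) (2 * Real.pi), Complex.exp ((k : ℝ) * t * Complex.I)
      = if k = 0 then ((2 * Real.pi : ℝ) : ℂ) else 0 := by
  rw [integral_Icc_eq_integral_Ioc, ← intervalIntegral.integral_of_le (by positivity)]
  split_ifs with h
  · simp [h]
  · have hc : ((k : ℝ) : ℂ) * Complex.I ≠ 0 := by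
      simp [h, Complex.I_ne_zero]
    have h1 : ∀ t : ℝ, Complex.exp ((k : ℝ) * t * Complex.I)
        = Complex.exp (((k : ℝ) * Complex.I) * t) := by
      intro t; congr 1; ring
    simp only [h1]
    rw [integral_exp_mul_complex hc]
    have h2 : Complex.exp (((k : ℝ) : ℂ) * Complex.I * ((2 * Real.pi : ℝ) : ℂ)) = 1 := by
      have := Complex.exp_int_mul_two_pi_mul_I k
      rw [← this]
      congr 1
      push_cast
      ring
    rw [h2]
    simp

lemma integral_cube_cexp (p : V → ℤ) :
    ∫ θ in cube Λ, Complex.exp ((dot Λ p θ : ℝ) * Complex.I)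
      = ∏ x : Λ, (if p x = 0 then ((2 * Real.pi : ℝ) : ℂ) else 0) := by
  have h1 : (volume : Measure (Λ → ℝ)).restrict (cube Λ)
      = Measure.pi (fun _ : Λ => (volume : Measure ℝ).restrict (Icc 0 (2 * Real.pi))) := by
    rw [volume_pi, cube, Measure.restrict_pi_pi]
  rw [h1]
  have h2 : ∀ θ : Λ → ℝ, Complex.exp ((dot Λ p θ : ℝ) * Complex.I)
      = ∏ x : Λ, Complex.exp (((p x : ℝ) : ℂ) * (θ x : ℝ) * Complex.I) := by
    intro θ
    rw [← Complex.exp_sum]
    congr 1
    unfold dot
    push_cast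
    rw [Finset.sum_mul]
  simp only [h2]
  rw [integral_fintype_prod_eq_prod
    (fun (x : Λ) (t : ℝ) => Complex.exp (((p x : ℝ) : ℂ) * (t : ℝ) * Complex.I))]
  apply Finset.prod_congr rfl
  intro x _
  exact integral_factor (p x)

/-- Integrability of continuous functions on the cube. -/
lemma integrableOn_cube {E : Type*} [NormedAddCommGroup E] {f : (Λ → ℝ) → E} (hf : Continuous f) :
    IntegrableOn f (cube Λ) :=
  hf.continuousOn.integrableOn_compact (isCompact_cube Λ)

lemma integral_cube_cos (p : V → ℤ) (hp : ∀ v, v ∉ Λ → p v = 0) :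
    ∫ θ in cube Λ, Real.cos (dot Λ p θ) = (2 * Real.pi) ^ Λ.card * delta0 p := by
  have hcont : Continuous (fun θ : Λ → ℝ => Complex.exp ((dot Λ p θ : ℝ) * Complex.I)) := by
    have := continuous_dot Λ p
    fun_prop
  have h1 : (fun θ : Λ → ℝ => Real.cos (dot Λ p θ))
      = fun θ => RCLike.re (Complex.exp ((dot Λ p θ : ℝ) * Complex.I)) := by
    funext θ
    simp only [RCLike.re_to_complex]
    rw [Complex.exp_ofReal_mul_I_re]
  rw [h1, integral_re (integrableOn_cube Λ hcont), integral_cube_cexp]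
  by_cases h0 : p = 0
  · have : ∏ x : Λ, (if p x = 0 then ((2 * Real.pi : ℝ) : ℂ) else 0)
        = (((2 * Real.pi) ^ Λ.card : ℝ) : ℂ) := by
      simp [h0, Finset.prod_const]
    rw [this, h0, delta0_zero, mul_one]
    simp only [RCLike.re_to_complex]
    exact Complex.ofReal_re _
  · have : ∃ v, p v ≠ 0 := by
      by_contra hcon
      push Not at hcon
      exact h0 (funext hcon)
    obtain ⟨v, hv⟩ := this
    have hvL : v ∈ Λ := by
      by_contra hvL
      exact hv (hp v hvL)
    have : ∏ x : Λ, (if p x = 0 then ((2 * Real.pi : ℝ) : ℂ) else 0) = 0 := by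
      apply Finset.prod_eq_zero (Finset.mem_univ (⟨v, hvL⟩ : Λ))
      simp [hv]
    rw [this, delta0_of_ne h0]
    simp

/-- The Hamiltonian. -/
noncomputable def Ham (E : Finset (V × V)) (w : V × V → ℝ) (θ : Λ → ℝ) : ℝ :=
  ∑ e ∈ E, w e * Real.cos (dot Λ (dip e) θ)

lemma continuous_Ham (E : Finset (V × V)) (w : V × V → ℝ) : Continuous (Ham Λ E w) := by
  unfold Ham
  have : ∀ e : V × V, Continuous (dot Λ (dip e)) := fun e => continuous_dot Λ _
  fun_prop

lemma dip_support (e : V × V) (he : e.1 ∈ Λ ∧ e.2 ∈ Λ) (v : V) (hv : v ∉ Λ) : dip e v = 0 := by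
  have h1 : v ≠ e.1 := fun h => hv (h ▸ he.1)
  have h2 : v ≠ e.2 := fun h => hv (h ▸ he.2)
  simp [dip, chg, h1, h2]

lemma integral_cos_pow (E : Finset (V × V)) (w : V × V → ℝ)
    (hE : ∀ e ∈ E, e.1 ∈ Λ ∧ e.2 ∈ Λ) : ∀ (m : ℕ) (p : V → ℤ), (∀ v, v ∉ Λ → p v = 0) →
    ∫ θ in cube Λ, Real.cos (dot Λ p θ) * Ham Λ E w θ ^ m
      = (2 * Real.pi) ^ Λ.card * mom E w m p
  | 0, p, hp => by
      simp only [pow_zero, mul_one]
      exact integral_cube_cos Λ p hp
  | m + 1, p, hp => by
      have hpt : ∀ θ : Λ → ℝ, Real.cos (dot Λ p θ) * Ham Λ E w θ ^ (m + 1)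
          = ∑ e ∈ E, (w e / 2) *
            (Real.cos (dot Λ (p - dip e) θ) * Ham Λ E w θ ^ m
              + Real.cos (dot Λ (p + dip e) θ) * Ham Λ E w θ ^ m) := by
        intro θ
        rw [pow_succ', ← mul_assoc]
        have : Real.cos (dot Λ p θ) * Ham Λ E w θ = ∑ e ∈ E, (w e / 2) *
            (Real.cos (dot Λ (p - dip e) θ) + Real.cos (dot Λ (p + dip e) θ)) := by
          unfold Ham
          rw [Finset.mul_sum]
          apply Finset.sum_congr rfl
          intro e _
          rw [dot_sub, dot_add, Real.cos_sub, Real.cos_add]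
          ring
        rw [this, Finset.sum_mul]
        apply Finset.sum_congr rfl
        intro e _
        ring
      simp only [hpt]
      have hci : ∀ q : V → ℤ, IntegrableOn
          (fun θ => Real.cos (dot Λ q θ) * Ham Λ E w θ ^ m) (cube Λ) := by
        intro q
        apply integrableOn_cube
        have := continuous_dot Λ q
        have := continuous_Ham Λ E w
        fun_prop
      rw [integral_finsetSum]
      · simp only [mom, T]
        rw [Finset.mul_sum]
        apply Finset.sum_congr rfl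
        intro e he
        rw [integral_const_mul, integral_add (hci _) (hci _)]
        have hsub : ∀ v, v ∉ Λ → (p - dip e) v = 0 := by
          intro v hv
          simp [hp v hv, dip_support Λ e (hE e he) v hv]
        have hadd : ∀ v, v ∉ Λ → (p + dip e) v = 0 := by
          intro v hv
          simp [hp v hv, dip_support Λ e (hE e he) v hv]
        rw [integral_cos_pow E w hE m _ hsub, integral_cos_pow E w hE m _ hadd]
        ring
      · intro e _
        exact ((hci _).add (hci _)).const_mul _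

lemma abs_Ham_le (E : Finset (V × V)) {w : V × V → ℝ} (hw : ∀ e, 0 ≤ w e) (θ : Λ → ℝ) :
    |Ham Λ E w θ| ≤ wt E w := by
  unfold Ham wt
  refine (Finset.abs_sum_le_sum_abs _ _).trans ?_
  apply Finset.sum_le_sum
  intro e _
  rw [abs_mul, abs_of_nonneg (hw e)]
  have := Real.abs_cos_le_one (dot Λ (dip e) θ)
  have h2 := hw e
  nlinarith

/-- The bridge between the integral and the series. -/
theorem integral_cos_exp (E : Finset (V × V)) {w : V × V → ℝ} (hw : ∀ e, 0 ≤ w e)
    (hE : ∀ e ∈ E, e.1 ∈ Λ ∧ e.2 ∈ Λ) (p : V → ℤ) (hp : ∀ v, v ∉ Λ → p v = 0) :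
    ∫ θ in cube Λ, Real.cos (dot Λ p θ) * Real.exp (Ham Λ E w θ)
      = (2 * Real.pi) ^ Λ.card * Z E w p := by
  set F : ℕ → (Λ → ℝ) → ℝ :=
    fun m θ => Real.cos (dot Λ p θ) * Ham Λ E w θ ^ m / (m.factorial : ℝ) with hF
  have hFcont : ∀ m, Continuous (F m) := by
    intro m
    have := continuous_dot Λ p
    have := continuous_Ham Λ E w
    simp only [hF]
    fun_prop
  have hFint : ∀ m, Integrable (F m) (volume.restrict (cube Λ)) :=
    fun m => integrableOn_cube Λ (hFcont m)
  have hsummable : Summable (fun m => ∫ θ in cube Λ, ‖F m θ‖) := by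
    set vv : ℝ := (volume : Measure (Λ → ℝ)).real (cube Λ) with hvv
    have hbound : ∀ m, ∫ θ in cube Λ, ‖F m θ‖ ≤ vv * (wt E w ^ m / (m.factorial : ℝ)) := by
      intro m
      have h1 : ∀ θ, ‖F m θ‖ ≤ wt E w ^ m / (m.factorial : ℝ) := by
        intro θ
        simp only [hF]
        rw [norm_div, norm_mul, norm_pow, Real.norm_eq_abs, Real.norm_eq_abs, Real.norm_eq_abs,
          Nat.abs_cast]
        apply div_le_div_of_nonneg_right _ (by positivity)
        have h2 := Real.abs_cos_le_one (dot Λ p θ)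
        have h3 := abs_Ham_le Λ E hw θ
        have h4 : |Ham Λ E w θ| ^ m ≤ wt E w ^ m := pow_le_pow_left₀ (abs_nonneg _) h3 m
        have h5 : 0 ≤ |Ham Λ E w θ| ^ m := by positivity
        calc |Real.cos (dot Λ p θ)| * |Ham Λ E w θ| ^ m ≤ 1 * wt E w ^ m := by
              apply mul_le_mul h2 h4 h5 (by norm_num)
          _ = _ := one_mul _
      have h6 : IntegrableOn (fun _ : Λ → ℝ => wt E w ^ m / (m.factorial : ℝ)) (cube Λ) :=
        integrableOn_cube Λ continuous_const
      have h7 := setIntegral_mono (μ := volume) (s := cube Λ)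
        (hFint m).norm h6 h1
      refine h7.trans (le_of_eq ?_)
      rw [setIntegral_const, smul_eq_mul]
    apply Summable.of_nonneg_of_le _ hbound ((summable_pow_fact (wt E w)).mul_left vv)
    intro m
    exact integral_nonneg (fun θ => norm_nonneg _)
  have h1 := hasSum_integral_of_summable_integral_norm hFint hsummable
  have h2 : ∀ θ, ∑' m, F m θ = Real.cos (dot Λ p θ) * Real.exp (Ham Λ E w θ) := by
    intro θ
    have h3 := NormedSpace.expSeries_div_hasSum_exp (Ham Λ E w θ)
    rw [← Real.exp_eq_exp_ℝ] at h3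
    have h4 := h3.mul_left (Real.cos (dot Λ p θ))
    simp only [hF]
    rw [← h4.tsum_eq]
    apply tsum_congr
    intro m
    ring
  simp only [h2] at h1
  have h3 := (hasSum_Z E hw p).mul_left ((2 * Real.pi) ^ Λ.card)
  have h4 : (fun m => ∫ θ in cube Λ, F m θ)
      = fun m : ℕ => (2 * Real.pi) ^ Λ.card * (mom E w m p / (m.factorial : ℝ)) := by
    funext m
    simp only [hF]
    simp only [div_eq_mul_inv]
    rw [integral_mul_const, ← mul_assoc]
    congr 1
    exact integral_cos_pow Λ E w hE m p hp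
  rw [h4] at h1
  exact h1.unique h3

end Vale.Agent.Lib.P159
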