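import Vale.Agent.Lib.P159.MeanField

/-!
# Exponential decay from summability (Simon–Lieb type argument) and the main bound
-/

namespace Vale.Agent.Lib.P159

open Filter Set Topology

set_option linter.unusedSectionVars false

variable {b b' ε X : ℝ}

/-- The sup norm of a site. -/
def normS (u : ℤ × ℤ) : ℕ := max u.1.natAbs u.2.natAbs

lemma mem_box_iff {ρ : ℕ} {u : ℤ × ℤ} : u ∈ box ρ ↔ normS u ≤ ρ := by
  rw [mem_box]
  unfold normS
  omega

lemma normS_tri (x v : ℤ × ℤ) : normS x ≤ normS (x - v) + normS v := by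
  unfold normS
  simp only [Prod.fst_sub, Prod.snd_sub]
  omega

lemma adj_normS {u v : ℤ × ℤ} (h : Adj u v) : normS v ≤ normS u + 1 := by
  have := adj_coord h
  unfold normS
  omega

/-- One application of the Lieb type inequality. -/
theorem cf_lieb (hb : 0 < b) {ρ R : ℕ} (hρR : ρ ≤ R) {x : ℤ × ℤ} (hx : x ∉ box ρ) {A : ℝ}
    (hA0 : 0 ≤ A) (hA : ∀ v, normS v = ρ + 1 → cf R b v x ≤ A) (U : Finset (ℤ × ℤ))
    (hU : ∀ u, normS u = ρ → u ∈ U) :
    cf R b 0 x ≤ 2 * b * (∑ u ∈ U, cInf b 0 u) * A := by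
  have hb2 : 0 ≤ b / 2 := by positivity
  have hw : ∀ e : (ℤ × ℤ) × (ℤ × ℤ), 0 ≤ (if e ∈ D ρ then b / 2 else 0 : ℝ) := by
    intro e; split_ifs <;> simp [hb2]
  have hΔ : ∀ e : (ℤ × ℤ) × (ℤ × ℤ), 0 ≤ (if e ∈ D ρ then 0 else b / 2 : ℝ) := by
    intro e; split_ifs <;> simp [hb2]
  have h := corr_master (E := D R) hw hΔ 0 x
  have h2 : (fun e : (ℤ × ℤ) × (ℤ × ℤ) => (if e ∈ D ρ then b / 2 else 0 : ℝ)
      + (if e ∈ D ρ then 0 else b / 2 : ℝ)) = fun _ => b / 2 := by
    funext e; split_ifs <;> simp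
  have h3 : ∀ a c : ℤ × ℤ, corr (D R) (fun e => if e ∈ D ρ then b / 2 else 0) a c = cf ρ b a c :=
    fun a c => corr_restrict (D_mono hρR) (b / 2) a c
  simp only [h3] at h
  rw [h2] at h
  have h0x : (0 : ℤ × ℤ) ≠ x := fun h4 => hx (h4 ▸ zero_mem_box ρ)
  rw [cf_eq_zero hx h0x, zero_add] at h
  have hcf0 : ∀ u, u ∉ box ρ → cf ρ b 0 u = 0 := by
    intro u hu
    exact cf_eq_zero hu (fun h4 => hu (h4 ▸ zero_mem_box ρ)) b
  have hnonneg : ∀ a c, 0 ≤ cf R b a c := fun a c => cf_nonneg hb.le R a c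
  have hnonneg' : ∀ a c, 0 ≤ cf ρ b a c := fun a c => cf_nonneg hb.le ρ a c
  set P₁ := (D R).filter (fun e => e.1 ∈ box ρ ∧ e.2 ∉ box ρ) with hP₁
  set P₂ := (D R).filter (fun e => e.2 ∈ box ρ ∧ e.1 ∉ box ρ) with hP₂
  -- geometry of boundary edges
  have hgeo : ∀ u v : ℤ × ℤ, Adj u v → u ∈ box ρ → v ∉ box ρ → normS u = ρ ∧ normS v = ρ + 1 := by
    intro u v hadj hu hv
    rw [mem_box_iff] at hu hv
    have h5 := adj_normS hadj
    omega
  have hT1 : ∑ e ∈ D R, ((if e ∈ D ρ then 0 else b / 2 : ℝ) / 2) * (cf ρ b 0 e.1 * cf R b e.2 x)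
      ≤ ∑ e ∈ P₁, (b / 4) * (cInf b 0 e.1 * A) := by
    rw [hP₁, Finset.sum_filter]
    apply Finset.sum_le_sum
    intro e he
    have he' := mem_D.mp he
    split_ifs with hc hc2 hc3
    · -- impossible: `e ∈ D ρ` and boundary
      exact absurd (mem_D.mp hc).2.1 hc2.2
    · -- boundary edge
      simp only [zero_div, zero_mul]
      have h4 := cInf_nonneg hb.le 0 e.1
      positivity
    · have h4 := hgeo e.1 e.2 he'.2.2 hc3.1 hc3.2
      have h5 := hA e.2 h4.2
      have h6 := cf_le_cInf hb.le ρ 0 e.1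
      have h7 : cf ρ b 0 e.1 * cf R b e.2 x ≤ cInf b 0 e.1 * A :=
        mul_le_mul h6 h5 (hnonneg _ _) (cInf_nonneg hb.le _ _)
      have h8 : b / 2 / 2 = b / 4 := by ring
      rw [h8]
      exact mul_le_mul_of_nonneg_left h7 (by positivity)
    · -- not a boundary edge, not in `D ρ`
      by_cases h4 : e.1 ∈ box ρ
      · have h5 : e.2 ∈ box ρ := by
          by_contra h6
          exact hc3 ⟨h4, h6⟩
        exact absurd (mem_D.mpr ⟨h4, h5, he'.2.2⟩) hc
      · rw [hcf0 _ h4]; simp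
  have hT2 : ∑ e ∈ D R, ((if e ∈ D ρ then 0 else b / 2 : ℝ) / 2) * (cf ρ b 0 e.2 * cf R b e.1 x)
      ≤ ∑ e ∈ P₂, (b / 4) * (cInf b 0 e.2 * A) := by
    rw [hP₂, Finset.sum_filter]
    apply Finset.sum_le_sum
    intro e he
    have he' := mem_D.mp he
    split_ifs with hc hc2 hc3
    · exact absurd (mem_D.mp hc).1 hc2.2
    · simp only [zero_div, zero_mul]
      have h4 := cInf_nonneg hb.le 0 e.2
      positivity
    · have h4 := hgeo e.2 e.1 (adj_symm he'.2.2) hc3.1 hc3.2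
      have h5 := hA e.1 h4.2
      have h6 := cf_le_cInf hb.le ρ 0 e.2
      have h7 : cf ρ b 0 e.2 * cf R b e.1 x ≤ cInf b 0 e.2 * A :=
        mul_le_mul h6 h5 (hnonneg _ _) (cInf_nonneg hb.le _ _)
      have h8 : b / 2 / 2 = b / 4 := by ring
      rw [h8]
      exact mul_le_mul_of_nonneg_left h7 (by positivity)
    · by_cases h4 : e.2 ∈ box ρ
      · have h5 : e.1 ∈ box ρ := by
          by_contra h6
          exact hc3 ⟨h4, h6⟩
        exact absurd (mem_D.mpr ⟨h5, h4, he'.2.2⟩) hc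
      · rw [hcf0 _ h4]; simp
  have hg : ∀ u, 0 ≤ cInf b 0 u := fun u => cInf_nonneg hb.le 0 u
  have hS1 : ∑ e ∈ P₁, cInf b 0 e.1 ≤ 4 * ∑ u ∈ U, cInf b 0 u := by
    apply sum_fst_le P₁ _ U _ _ hg
    · intro e he
      exact (mem_D.mp (Finset.mem_filter.mp he).1).2.2
    · intro e he
      have he' := Finset.mem_filter.mp he
      exact hU _ (hgeo e.1 e.2 (mem_D.mp he'.1).2.2 he'.2.1 he'.2.2).1
  have hS2 : ∑ e ∈ P₂, cInf b 0 e.2 ≤ 4 * ∑ u ∈ U, cInf b 0 u := by
    apply sum_snd_le P₂ _ U _ _ hg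
    · intro e he
      exact (mem_D.mp (Finset.mem_filter.mp he).1).2.2
    · intro e he
      have he' := Finset.mem_filter.mp he
      exact hU _ (hgeo e.2 e.1 (adj_symm (mem_D.mp he'.1).2.2) he'.2.1 he'.2.2).1
  have hsplit : ∑ e ∈ D R, ((if e ∈ D ρ then 0 else b / 2 : ℝ) / 2) *
        (cf ρ b 0 e.1 * cf R b e.2 x + cf ρ b 0 e.2 * cf R b e.1 x)
      = ∑ e ∈ D R, ((if e ∈ D ρ then 0 else b / 2 : ℝ) / 2) * (cf ρ b 0 e.1 * cf R b e.2 x)
        + ∑ e ∈ D R, ((if e ∈ D ρ then 0 else b / 2 : ℝ) / 2) * (cf ρ b 0 e.2 * cf R b e.1 x) := by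
    rw [← Finset.sum_add_distrib]
    apply Finset.sum_congr rfl
    intro e _
    ring
  have hcfR : cf R b 0 x = corr (D R) (fun _ => b / 2) 0 x := rfl
  have hfinal : ∑ e ∈ P₁, (b / 4) * (cInf b 0 e.1 * A) + ∑ e ∈ P₂, (b / 4) * (cInf b 0 e.2 * A)
      ≤ 2 * b * (∑ u ∈ U, cInf b 0 u) * A := by
    have h4 : ∑ e ∈ P₁, (b / 4) * (cInf b 0 e.1 * A) = (b / 4) * A * ∑ e ∈ P₁, cInf b 0 e.1 := by
      rw [Finset.mul_sum]
      apply Finset.sum_congr rfl
      intro e _
      ring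
    have h5 : ∑ e ∈ P₂, (b / 4) * (cInf b 0 e.2 * A) = (b / 4) * A * ∑ e ∈ P₂, cInf b 0 e.2 := by
      rw [Finset.mul_sum]
      apply Finset.sum_congr rfl
      intro e _
      ring
    rw [h4, h5]
    have h6 : 0 ≤ (b / 4) * A := by positivity
    have h7 := mul_le_mul_of_nonneg_left hS1 h6
    have h8 := mul_le_mul_of_nonneg_left hS2 h6
    nlinarith
  have hmain : cf R b 0 x ≤ ∑ e ∈ D R, ((if e ∈ D ρ then 0 else b / 2 : ℝ) / 2) *
        (cf ρ b 0 e.1 * cf R b e.2 x + cf ρ b 0 e.2 * cf R b e.1 x) := h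
  rw [hsplit] at hmain
  linarith

/-- Iterating the Lieb type inequality. -/
theorem cInf_decay (hb : 0 < b) (ρ : ℕ) (U : Finset (ℤ × ℤ)) (hU : ∀ u, normS u = ρ → u ∈ U) :
    ∀ (k : ℕ) (x y : ℤ × ℤ), k * (ρ + 1) ≤ normS (x - y) →
      cInf b y x ≤ (2 * b * ∑ u ∈ U, cInf b 0 u) ^ k
  | 0, x, y, _ => by
      simpa using cInf_le_one hb.le y x
  | k + 1, x, y, h => by
      set κ := 2 * b * ∑ u ∈ U, cInf b 0 u with hκ
      have hκ0 : 0 ≤ κ := by
        have : 0 ≤ ∑ u ∈ U, cInf b 0 u := Finset.sum_nonneg (fun u _ => cInf_nonneg hb.le 0 u)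
        positivity
      rw [cInf_eq_zero_base hb.le]
      set x' := x - y with hx'
      have hx'norm : (k + 1) * (ρ + 1) ≤ normS x' := h
      have hx'box : x' ∉ box ρ := by
        rw [mem_box_iff]
        nlinarith
      apply cInf_le
      intro R
      -- reduce to large volumes
      have hR : cf R b 0 x' ≤ cf (max R ρ) b 0 x' := cf_mono_R hb.le (le_max_left _ _) _ _
      refine hR.trans ?_
      have hA : ∀ v, normS v = ρ + 1 → cf (max R ρ) b v x' ≤ κ ^ k := by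
        intro v hv
        refine (cf_le_cInf hb.le _ _ _).trans ?_
        apply cInf_decay hb ρ U hU k x' v
        have h1 := normS_tri x' v
        have h2 : (k + 1) * (ρ + 1) = k * (ρ + 1) + (ρ + 1) := by ring
        omega
      have h3 := cf_lieb hb (le_max_right R ρ) hx'box (pow_nonneg hκ0 k) hA U hU
      calc cf (max R ρ) b 0 x' ≤ κ * κ ^ k := h3
        _ = κ ^ (k + 1) := by ring

/-- A finite susceptibility implies a positive mass. -/
theorem mass_pos_of_sumBdd (hb : 0 < b) (hX : SumBdd b X) : 0 < mass b := by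
  -- choose a good shell
  obtain ⟨N, hN⟩ := exists_nat_gt (X * (4 * b))
  have hb4 : 0 < 4 * b := by positivity
  have hshell : ∃ ρ ∈ Finset.range (N + 1),
      ∑ u ∈ (box N).filter (fun u => normS u = ρ), cInf b 0 u ≤ 1 / (4 * b) := by
    by_contra hcon
    push Not at hcon
    have h1 : ∑ ρ ∈ Finset.range (N + 1), (1 / (4 * b))
        ≤ ∑ ρ ∈ Finset.range (N + 1), ∑ u ∈ (box N).filter (fun u => normS u = ρ), cInf b 0 u :=
      Finset.sum_le_sum (fun ρ hρ => (hcon ρ hρ).le)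
    rw [Finset.sum_const, Finset.card_range, nsmul_eq_mul] at h1
    have h2 : ∀ u ∈ box N, normS u ∈ Finset.range (N + 1) := by
      intro u hu
      rw [Finset.mem_range]
      have := mem_box_iff.mp hu
      omega
    rw [Finset.sum_fiberwise_of_maps_to h2] at h1
    have h3 := hX (box N)
    have h4 : ((N + 1 : ℕ) : ℝ) * (1 / (4 * b)) ≤ X := h1.trans h3
    have h5 : X * (4 * b) < ((N + 1 : ℕ) : ℝ) := by
      push_cast
      linarith
    rw [mul_one_div, div_le_iff₀ hb4] at h4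
    linarith
  obtain ⟨ρ, hρ, hs⟩ := hshell
  have hρN : ρ ≤ N := by
    have := Finset.mem_range.mp hρ
    omega
  set U := (box N).filter (fun u => normS u = ρ) with hUdef
  have hU : ∀ u, normS u = ρ → u ∈ U := by
    intro u hu
    rw [hUdef, Finset.mem_filter]
    exact ⟨mem_box_iff.mpr (by omega), hu⟩
  set κ := 2 * b * ∑ u ∈ U, cInf b 0 u with hκ
  have hκ0 : 0 ≤ κ := by
    have : 0 ≤ ∑ u ∈ U, cInf b 0 u := Finset.sum_nonneg (fun u _ => cInf_nonneg hb.le 0 u)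
    positivity
  have hκ1 : κ ≤ 1 / 2 := by
    have h1 : 2 * b * ∑ u ∈ U, cInf b 0 u ≤ 2 * b * (1 / (4 * b)) :=
      mul_le_mul_of_nonneg_left hs (by positivity)
    have h2 : 2 * b * (1 / (4 * b)) = 1 / 2 := by
      field_simp
      norm_num
    linarith
  -- along a subsequence the mass is bounded below
  set rr : ℕ → ℕ := fun k => (k + 1) * (ρ + 1) with hrr
  have hrr_tendsto : Tendsto rr atTop atTop := by
    apply tendsto_atTop_mono _ tendsto_id
    intro k
    simp only [hrr, id]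
    nlinarith
  have hlim := (tendsto_mass hb).comp hrr_tendsto
  have hlow : Real.log 2 / ((ρ : ℝ) + 1) ≤ mass b := by
    apply ge_of_tendsto' hlim
    intro k
    simp only [Function.comp]
    rw [corrC_eq hb]
    have h1 : (k + 1) * (ρ + 1) ≤ normS (ax (rr k) - 0) := by
      have : normS (ax (rr k) - 0) = rr k := by
        simp [normS, ax]
      rw [this]
    have h2 := cInf_decay hb ρ U hU (k + 1) (ax (rr k)) 0 h1
    have h3 : cInf b 0 (ax (rr k)) ≤ (1 / 2) ^ (k + 1) :=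
      h2.trans (pow_le_pow_left₀ hκ0 hκ1 _)
    have hpos := cInf_ax_pos hb (rr k)
    have h4 : Real.log (cInf b 0 (ax (rr k))) ≤ ((k + 1 : ℕ) : ℝ) * Real.log (1 / 2) := by
      rw [← Real.log_pow]
      exact Real.log_le_log hpos h3
    have h5 : Real.log (1 / 2) = -Real.log 2 := by
      rw [one_div, Real.log_inv]
    rw [h5] at h4
    have h6 : ((rr k : ℕ) : ℝ) = ((k : ℝ) + 1) * ((ρ : ℝ) + 1) := by
      simp only [hrr]; push_cast; ring
    have hk : (0:ℝ) < (k : ℝ) + 1 := by positivity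
    have hρ1 : (0:ℝ) < (ρ : ℝ) + 1 := by positivity
    rw [h6]
    rw [div_le_iff₀ hρ1]
    have h7 : -(1 / (((k : ℝ) + 1) * ((ρ : ℝ) + 1))) * Real.log (cInf b 0 (ax (rr k)))
        * ((ρ : ℝ) + 1) = -(Real.log (cInf b 0 (ax (rr k)))) / ((k : ℝ) + 1) := by
      field_simp
    rw [h7, le_div_iff₀ hk]
    push_cast at h4
    nlinarith
  have hlog : 0 < Real.log 2 := Real.log_pos (by norm_num)
  have : 0 < Real.log 2 / ((ρ : ℝ) + 1) := by positivity
  linarith

/-- Main bound for `b < b_c`. -/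
theorem main_bound (hb : 0 < b) (hbc : b < critB) :
    0 < mass b ∧ 1 ≤ 2 * (critB - b) * (1 + 4 / mass b) ^ 2 := by
  have hbdd : BddBelow {b : ℝ | 0 < b ∧ mass b = 0} := ⟨0, fun _ h => h.1.le⟩
  have hnot : b ∉ {b : ℝ | 0 < b ∧ mass b = 0} := notMem_of_lt_csInf hbc hbdd
  have hm0 : mass b ≠ 0 := fun h => hnot ⟨hb, h⟩
  have hm : 0 < mass b := lt_of_le_of_ne (mass_nonneg hb) hm0.symm
  refine ⟨hm, ?_⟩
  by_contra hcon
  push Not at hcon
  set X₀ := (1 + 4 / mass b) ^ 2 with hX₀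
  have hX₀pos : 0 < X₀ := by positivity
  have hε0 : 0 < critB - b := by linarith
  -- choose `ε` slightly bigger
  set δ := (1 - 2 * (critB - b) * X₀) / (4 * X₀) with hδ
  have hδ0 : 0 < δ := by
    apply div_pos <;> linarith
  set ε := (critB - b) + δ with hε
  have hε1 : 2 * ε * X₀ < 1 := by
    have h1 : δ * (4 * X₀) = 1 - 2 * (critB - b) * X₀ := by
      rw [hδ]; field_simp
    have h2 : 2 * ε * X₀ = 2 * (critB - b) * X₀ + (1 - 2 * (critB - b) * X₀) / 2 := by
      rw [hε, ← h1]; ring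
    rw [h2]
    linarith
  have hεpos : 0 < ε := by linarith
  have hstep := sumBdd_step hb hεpos (sumBdd_of_mass hb hm) hε1
  have hbε : 0 < b + ε := by linarith
  have hmass' := mass_pos_of_sumBdd hbε hstep
  -- but `b + ε > b_c`
  have hne : ({b : ℝ | 0 < b ∧ mass b = 0}).Nonempty := by
    by_contra hempty
    rw [Set.not_nonempty_iff_eq_empty] at hempty
    have : critB = 0 := by
      unfold critB
      rw [hempty, Real.sInf_empty]
    rw [this] at hbc
    linarith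
  have hlt : critB < b + ε := by
    rw [hε]; linarith
  obtain ⟨b'', hb'', hlt''⟩ := exists_lt_of_csInf_lt hne hlt
  have h1 := mass_anti hb''.1 hlt''.le
  rw [hb''.2] at h1
  linarith

end Vale.Agent.Lib.P159
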