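import Mathlib

/-!
# The square lattice XY model: definitions

The definitions used in the statement of the result for problem P159.
-/

namespace Vale.Agent.Lib.P159

open MeasureTheory Filter

/-- The box `Λ_R = [-R,R]² ∩ ℤ²`. -/
noncomputable def box (R : ℕ) : Finset (ℤ × ℤ) :=
  Finset.Icc (-(R : ℤ)) (R : ℤ) ×ˢ Finset.Icc (-(R : ℤ)) (R : ℤ)

/-- Nearest neighbours in `ℤ²`. -/
def Adj (x y : ℤ × ℤ) : Prop := |x.1 - y.1| + |x.2 - y.2| = 1

instance : DecidableRel Adj := fun x y => Int.decEq (|x.1 - y.1| + |x.2 - y.2|) 1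

/-- The XY energy `∑_{{x,y} ∈ E_R} cos (θ_x - θ_y)`; every unordered edge occurs twice in the
double sum over ordered pairs, which is compensated by the factor `1/2`. -/
noncomputable def xyEnergy (R : ℕ) (θ : ℤ × ℤ → ℝ) : ℝ :=
  (1 / 2) * ∑ x ∈ box R, ∑ y ∈ box R, if Adj x y then Real.cos (θ x - θ y) else 0

/-- A configuration on the box, viewed as a function on `ℤ²` (it is zero off the box). -/
noncomputable def spinExtend {R : ℕ} (θ : box R → ℝ) : ℤ × ℤ → ℝ :=
  fun x => if h : x ∈ box R then θ ⟨x, h⟩ else 0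

/-- The expectation `E_{R,b} F` of the XY model at inverse temperature `b` with free boundary on
`Λ_R`: the uniform reference measure on the torus is written as Lebesgue measure on the cube
`[0,2π]^{Λ_R}`. -/
noncomputable def xyExpect (R : ℕ) (b : ℝ) (F : (ℤ × ℤ → ℝ) → ℝ) : ℝ :=
  (∫ θ in Set.pi Set.univ (fun _ : box R => Set.Icc (0:ℝ) (2 * Real.pi)),
      F (spinExtend θ) * Real.exp (b * xyEnergy R (spinExtend θ))) /
    (∫ θ in Set.pi Set.univ (fun _ : box R => Set.Icc (0:ℝ) (2 * Real.pi)),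
      Real.exp (b * xyEnergy R (spinExtend θ)))

/-- `C_b(r) = lim_{R → ∞} E_{R,b} cos (θ_0 - θ_{r e_1})`. -/
noncomputable def corrC (b : ℝ) (r : ℕ) : ℝ :=
  limUnder atTop (fun R : ℕ => xyExpect R b (fun θ => Real.cos (θ (0, 0) - θ ((r : ℤ), 0))))

/-- `m(b) = lim_{r → ∞} -(1/r) log C_b(r)`. -/
noncomputable def mass (b : ℝ) : ℝ :=
  limUnder atTop (fun r : ℕ => -(1 / (r : ℝ)) * Real.log (corrC b r))

/-- `b_c = inf {b > 0 : m(b) = 0}`. -/
noncomputable def critB : ℝ := sInf {b : ℝ | 0 < b ∧ mass b = 0}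

end Vale.Agent.Lib.P159
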