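import Vale.Agent.Lib.P159.Series

/-!
# Comparing two coupling functions

We expand in the difference `Δ` of two coupling functions, keeping the smaller one `w'` inside the
series `Z`.  Result: monotonicity of the correlation in the couplings and the master
inequality of Lieb–Rivasseau / mean field type.
-/

namespace Vale.Agent.Lib.P159

open Finset

set_option linter.unusedSectionVars false

variable {V : Type*} [DecidableEq V]

lemma T_T_eq (E : Finset (V × V)) (a b : V × V → ℝ) (g : (V → ℤ) → ℝ) (p : V → ℤ) :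
    T E a (T E b g) p = ∑ e ∈ E, ∑ f ∈ E, (a e / 2) * (b f / 2) *
      (g (p - dip e - dip f) + g (p - dip e + dip f) + g (p + dip e - dip f)
        + g (p + dip e + dip f)) := by
  simp only [T]
  apply Finset.sum_congr rfl
  intro e _
  rw [← Finset.sum_add_distrib, Finset.mul_sum]
  apply Finset.sum_congr rfl
  intro f _
  ring

lemma T_comm (E : Finset (V × V)) (a b : V × V → ℝ) (g : (V → ℤ) → ℝ) (p : V → ℤ) :
    T E a (T E b g) p = T E b (T E a g) p := by
  rw [T_T_eq, T_T_eq, Finset.sum_comm]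
  apply Finset.sum_congr rfl
  intro f _
  apply Finset.sum_congr rfl
  intro e _
  have h1 : p - dip f - dip e = p - dip e - dip f := by abel
  have h2 : p - dip f + dip e = p + dip e - dip f := by abel
  have h3 : p + dip f - dip e = p - dip e + dip f := by abel
  have h4 : p + dip f + dip e = p + dip e + dip f := by abel
  rw [h1, h2, h3, h4]
  ring

lemma T_add_weight (E : Finset (V × V)) (a b : V × V → ℝ) (g : (V → ℤ) → ℝ) (p : V → ℤ) :
    T E (fun e => a e + b e) g p = T E a g p + T E b g p := by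
  simp only [T]
  rw [← Finset.sum_add_distrib]
  apply Finset.sum_congr rfl
  intro e _
  ring

lemma T_sum_mul {β : Type*} (E : Finset (V × V)) (a : V × V → ℝ) (S : Finset β) (c : β → ℝ)
    (g : β → (V → ℤ) → ℝ) (p : V → ℤ) :
    T E a (fun q => ∑ x ∈ S, c x * g x q) p = ∑ x ∈ S, c x * T E a (g x) p := by
  simp only [T]
  simp only [Finset.mul_sum]
  rw [Finset.sum_comm]
  apply Finset.sum_congr rfl
  intro e _
  rw [← Finset.sum_add_distrib, Finset.mul_sum]
  apply Finset.sum_congr rfl
  intro x _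
  ring

section Two

variable (E : Finset (V × V)) (w' Δ : V × V → ℝ)

/-- Iterates of the `Δ` transfer operator on the `w'` moments. -/
noncomputable def bb : ℕ → ℕ → (V → ℤ) → ℝ
  | 0, i => mom E w' i
  | j + 1, i => T E Δ (bb j i)

/-- The `j`-th Taylor coefficient in `Δ`. -/
noncomputable def Zj : ℕ → (V → ℤ) → ℝ
  | 0 => Z E w'
  | j + 1 => fun p => (1 / ((j : ℝ) + 1)) * T E Δ (Zj j) p

lemma T_bb : ∀ (j i : ℕ), T E w' (bb E w' Δ j i) = bb E w' Δ j (i + 1)
  | 0, _ => rfl
  | j + 1, i => by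
      funext p
      simp only [bb]
      rw [T_comm, T_bb j i]

lemma mom_add_eq : ∀ (m : ℕ) (p : V → ℤ), mom E (fun e => w' e + Δ e) m p =
    ∑ ji ∈ antidiagonal m, (m.choose ji.1 : ℝ) * bb E w' Δ ji.1 ji.2 p
  | 0, p => by simp [mom, bb]
  | m + 1, p => by
      have h : mom E (fun e => w' e + Δ e) m
          = fun q => ∑ ji ∈ antidiagonal m, (m.choose ji.1 : ℝ) * bb E w' Δ ji.1 ji.2 q := by
        funext q; exact mom_add_eq m q
      simp only [mom]
      rw [T_add_weight, h, T_sum_mul, T_sum_mul,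
        Finset.sum_antidiagonal_choose_succ_mul (fun j i => bb E w' Δ j i p) m]
      congr 1
      · apply Finset.sum_congr rfl
        intro ji _
        rw [T_bb]
      · apply Finset.sum_congr rfl
        intro ji hji
        have hc : m.choose ji.2 = m.choose ji.1 :=
          (Nat.choose_symm_of_eq_add (Finset.HasAntidiagonal.mem_antidiagonal.mp hji).symm).symm
        rw [hc]
        rfl

variable {E w' Δ}

lemma bb_nonneg (hw : ∀ e, 0 ≤ w' e) (hΔ : ∀ e, 0 ≤ Δ e) :
    ∀ (j i : ℕ) (p : V → ℤ), 0 ≤ bb E w' Δ j i p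
  | 0, i, p => mom_nonneg E hw i p
  | j + 1, i, p => T_nonneg E hΔ (bb_nonneg hw hΔ j i) p

lemma bb_le (hw : ∀ e, 0 ≤ w' e) (hΔ : ∀ e, 0 ≤ Δ e) :
    ∀ (j i : ℕ) (p : V → ℤ), bb E w' Δ j i p ≤ wt E Δ ^ j * wt E w' ^ i
  | 0, i, p => by
      show mom E w' i p ≤ wt E Δ ^ 0 * wt E w' ^ i
      simpa using mom_le E hw i p
  | j + 1, i, p => by
      have h := T_le E hΔ (bb_le hw hΔ j i) p
      calc bb E w' Δ (j + 1) i p ≤ wt E Δ * (wt E Δ ^ j * wt E w' ^ i) := h
        _ = _ := by ring

/-- The Taylor coefficient is the sum over the `w'` moments. -/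
lemma hasSum_Zj (hw : ∀ e, 0 ≤ w' e) : ∀ (j : ℕ) (p : V → ℤ),
    HasSum (fun i : ℕ => bb E w' Δ j i p / ((j.factorial : ℝ) * (i.factorial : ℝ))) (Zj E w' Δ j p)
  | 0, p => by
      have := hasSum_Z E hw p
      simpa [bb, Zj] using this
  | j + 1, p => by
      have h := hasSum_sum (s := E) (fun e _ =>
        ((hasSum_Zj hw j (p - dip e)).add (hasSum_Zj hw j (p + dip e))).mul_left (Δ e / 2))
      have h2 := h.mul_left (1 / ((j : ℝ) + 1))
      have h3 : (fun i : ℕ => bb E w' Δ (j + 1) i p /
            (((j + 1).factorial : ℝ) * (i.factorial : ℝ)))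
          = fun i : ℕ => 1 / ((j : ℝ) + 1) * ∑ e ∈ E, Δ e / 2 *
            (bb E w' Δ j i (p - dip e) / ((j.factorial : ℝ) * (i.factorial : ℝ))
              + bb E w' Δ j i (p + dip e) / ((j.factorial : ℝ) * (i.factorial : ℝ))) := by
        funext i
        show (T E Δ (bb E w' Δ j i) p) / _ = _
        simp only [T]
        rw [Finset.sum_div, Finset.mul_sum]
        apply Finset.sum_congr rfl
        intro e _
        rw [Nat.factorial_succ]
        push_cast
        have h3 : ((j : ℝ) + 1) ≠ 0 := by positivity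
        have h4 : (j.factorial : ℝ) ≠ 0 := by positivity
        have h5 : (i.factorial : ℝ) ≠ 0 := by positivity
        field_simp
      rw [h3]
      exact h2

lemma Zj_nonneg (hw : ∀ e, 0 ≤ w' e) (hΔ : ∀ e, 0 ≤ Δ e) (j : ℕ) (p : V → ℤ) :
    0 ≤ Zj E w' Δ j p := by
  apply (hasSum_Zj hw j p).nonneg
  intro i
  exact div_nonneg (bb_nonneg hw hΔ j i p) (by positivity)

/-- The sum of the Taylor coefficients is the series for the coupling `w' + Δ`. -/
theorem hasSum_Zj_Z (hw : ∀ e, 0 ≤ w' e) (hΔ : ∀ e, 0 ≤ Δ e) (p : V → ℤ) :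
    HasSum (fun j => Zj E w' Δ j p) (Z E (fun e => w' e + Δ e) p) := by
  set g : ℕ × ℕ → ℝ :=
    fun x => bb E w' Δ x.1 x.2 p / ((x.1.factorial : ℝ) * (x.2.factorial : ℝ)) with hg
  have hg0 : ∀ x, 0 ≤ g x := fun x =>
    div_nonneg (bb_nonneg hw hΔ _ _ _) (by positivity)
  have hgs : Summable g := by
    have h := Summable.mul_of_nonneg (summable_pow_fact (wt E Δ)) (summable_pow_fact (wt E w'))
      (fun j => div_nonneg (pow_nonneg (wt_nonneg E hΔ) j) (by positivity))
      (fun i => div_nonneg (pow_nonneg (wt_nonneg E hw) i) (by positivity))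
    apply Summable.of_nonneg_of_le hg0 _ h
    intro x
    simp only [hg]
    rw [div_mul_div_comm]
    exact div_le_div_of_nonneg_right (bb_le hw hΔ _ _ _) (by positivity)
  have h1 : HasSum (fun j => Zj E w' Δ j p) (∑' x, g x) :=
    hgs.hasSum.prod_fiberwise (fun j => hasSum_Zj hw j p)
  have h2 := hasSum_antidiag hgs
  have h3 : (fun m => ∑ x ∈ antidiagonal m, g x)
      = fun m : ℕ => mom E (fun e => w' e + Δ e) m p / (m.factorial : ℝ) := by
    funext m
    rw [mom_add_eq, Finset.sum_div]
    apply Finset.sum_congr rfl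
    intro ji hji
    have hji' : ji.1 + ji.2 = m := Finset.HasAntidiagonal.mem_antidiagonal.mp hji
    have hc : ((m.choose ji.1 : ℕ) : ℝ) * (ji.1.factorial : ℝ) * (ji.2.factorial : ℝ)
        = (m.factorial : ℝ) := by
      have := Nat.add_choose_mul_factorial_mul_factorial ji.1 ji.2
      rw [hji', ← Nat.choose_symm_of_eq_add hji'.symm] at this
      exact_mod_cast this
    have h4 : (ji.1.factorial : ℝ) ≠ 0 := by positivity
    have h5 : (ji.2.factorial : ℝ) ≠ 0 := by positivity
    have h6 : (m.factorial : ℝ) ≠ 0 := by positivity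
    simp only [hg]
    rw [← hc] at h6 ⊢
    have h7 : ((m.choose ji.1 : ℕ) : ℝ) ≠ 0 := left_ne_zero_of_mul (left_ne_zero_of_mul h6)
    field_simp
  rw [h3] at h2
  have hw2 : ∀ e, 0 ≤ w' e + Δ e := fun e => add_nonneg (hw e) (hΔ e)
  have h4 := hasSum_Z E hw2 p
  rw [h2.unique h4] at h1
  exact h1

/-! ### Extended Ginibre inequality -/

theorem Zj_gram (hw : ∀ e, 0 ≤ w' e) (hΔ : ∀ e, 0 ≤ Δ e) : ∀ (j : ℕ) (A B : V → ℤ),
    2 * (Zj E w' Δ j A * Z E w' B) ≤
      Z E w' 0 * Zj E w' Δ j (A + B) + Z E w' 0 * Zj E w' Δ j (A - B)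
  | 0, A, B => Z_gram E hw A B
  | j + 1, A, B => by
      simp only [Zj, T]
      have hj : (0:ℝ) ≤ 1 / ((j : ℝ) + 1) := by positivity
      have key : ∀ e ∈ E, (Δ e / 2) * (2 * (Zj E w' Δ j (A - dip e) * Z E w' B)
            + 2 * (Zj E w' Δ j (A + dip e) * Z E w' B))
          ≤ (Δ e / 2) * (Z E w' 0 * (Zj E w' Δ j (A + B - dip e) + Zj E w' Δ j (A + B + dip e))
            + Z E w' 0 * (Zj E w' Δ j (A - B - dip e) + Zj E w' Δ j (A - B + dip e))) := by
        intro e _
        apply mul_le_mul_of_nonneg_left _ (div_nonneg (hΔ e) (by norm_num))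
        have h1 := Zj_gram hw hΔ j (A - dip e) B
        have h2 := Zj_gram hw hΔ j (A + dip e) B
        have e1 : A - dip e + B = A + B - dip e := by abel
        have e2 : A - dip e - B = A - B - dip e := by abel
        have e3 : A + dip e + B = A + B + dip e := by abel
        have e4 : A + dip e - B = A - B + dip e := by abel
        rw [e1, e2] at h1
        rw [e3, e4] at h2
        linarith
      have h := Finset.sum_le_sum key
      have h2 := mul_le_mul_of_nonneg_left h hj
      calc 2 * (1 / ((j : ℝ) + 1) * (∑ e ∈ E, Δ e / 2 *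
              (Zj E w' Δ j (A - dip e) + Zj E w' Δ j (A + dip e))) * Z E w' B)
          = 1 / ((j : ℝ) + 1) * ∑ e ∈ E, Δ e / 2 * (2 * (Zj E w' Δ j (A - dip e) * Z E w' B)
              + 2 * (Zj E w' Δ j (A + dip e) * Z E w' B)) := by
            simp only [Finset.mul_sum, Finset.sum_mul]
            apply Finset.sum_congr rfl
            intro e _
            ring
        _ ≤ _ := h2
        _ = _ := by
            simp only [Finset.mul_sum, ← Finset.sum_add_distrib]
            apply Finset.sum_congr rfl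
            intro e _
            ring

theorem Z_add_gram (hw : ∀ e, 0 ≤ w' e) (hΔ : ∀ e, 0 ≤ Δ e) (A B : V → ℤ) :
    2 * (Z E (fun e => w' e + Δ e) A * Z E w' B) ≤
      Z E w' 0 * Z E (fun e => w' e + Δ e) (A + B)
        + Z E w' 0 * Z E (fun e => w' e + Δ e) (A - B) := by
  have h1 := ((hasSum_Zj_Z (E := E) hw hΔ A).mul_right (Z E w' B)).mul_left 2
  have h2 := ((hasSum_Zj_Z (E := E) hw hΔ (A + B)).mul_left (Z E w' 0)).add
    ((hasSum_Zj_Z (E := E) hw hΔ (A - B)).mul_left (Z E w' 0))
  exact hasSum_le (fun j => Zj_gram hw hΔ j A B) h1 h2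

/-! ### Extended Gaussian inequality -/

/-- The error term. -/
noncomputable def Er (E : Finset (V × V)) (w' Δ : V × V → ℝ) (s : V) : ℕ → (V → ℤ) → ℝ
  | 0 => fun _ => 0
  | j + 1 => fun A => ∑ e ∈ E, (Δ e / 2) *
      (Zj E w' Δ j (A - chg s + chg e.2) * Z E w' (chg s - chg e.1)
        + Zj E w' Δ j (A - chg s + chg e.1) * Z E w' (chg s - chg e.2))

lemma T_Er (s : V) : ∀ (j : ℕ) (A : V → ℤ),
    T E Δ (Er E w' Δ s j) A = (j : ℝ) * Er E w' Δ s (j + 1) A
  | 0, A => by simp [T, Er]
  | k + 1, A => by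
      have hk : ((k : ℝ) + 1) ≠ 0 := by positivity
      have hZ : ∀ q, ((k : ℝ) + 1) * Zj E w' Δ (k + 1) q = T E Δ (Zj E w' Δ k) q := by
        intro q
        simp only [Zj]
        field_simp
      simp only [Er, T]
      push_cast
      rw [Finset.mul_sum]
      -- both sides are double sums
      have hR : ∀ e ∈ E, ((k : ℝ) + 1) * (Δ e / 2 *
            (Zj E w' Δ (k + 1) (A - chg s + chg e.2) * Z E w' (chg s - chg e.1)
              + Zj E w' Δ (k + 1) (A - chg s + chg e.1) * Z E w' (chg s - chg e.2)))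
          = ∑ f ∈ E, (Δ f / 2) * (Δ e / 2 *
            ((Zj E w' Δ k (A - chg s + chg e.2 - dip f)
                + Zj E w' Δ k (A - chg s + chg e.2 + dip f)) * Z E w' (chg s - chg e.1)
              + (Zj E w' Δ k (A - chg s + chg e.1 - dip f)
                + Zj E w' Δ k (A - chg s + chg e.1 + dip f)) * Z E w' (chg s - chg e.2))) := by
        intro e _
        have h1 : ((k : ℝ) + 1) * (Δ e / 2 *
            (Zj E w' Δ (k + 1) (A - chg s + chg e.2) * Z E w' (chg s - chg e.1)
              + Zj E w' Δ (k + 1) (A - chg s + chg e.1) * Z E w' (chg s - chg e.2)))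
            = Δ e / 2 * ((((k : ℝ) + 1) * Zj E w' Δ (k + 1) (A - chg s + chg e.2))
                * Z E w' (chg s - chg e.1)
              + (((k : ℝ) + 1) * Zj E w' Δ (k + 1) (A - chg s + chg e.1))
                * Z E w' (chg s - chg e.2)) := by ring
        rw [h1, hZ, hZ]
        simp only [T]
        rw [Finset.sum_mul, Finset.sum_mul, ← Finset.sum_add_distrib, Finset.mul_sum]
        apply Finset.sum_congr rfl
        intro f _
        ring
      rw [Finset.sum_congr rfl hR, Finset.sum_comm]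
      apply Finset.sum_congr rfl
      intro f _
      rw [← Finset.sum_add_distrib, Finset.mul_sum]
      apply Finset.sum_congr rfl
      intro e _
      have e1 : A - dip f - chg s + chg e.2 = A - chg s + chg e.2 - dip f := by abel
      have e2 : A - dip f - chg s + chg e.1 = A - chg s + chg e.1 - dip f := by abel
      have e3 : A + dip f - chg s + chg e.2 = A - chg s + chg e.2 + dip f := by abel
      have e4 : A + dip f - chg s + chg e.1 = A - chg s + chg e.1 + dip f := by abel
      rw [e1, e2, e3, e4]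
      ring

omit [DecidableEq V] in
lemma chg_nonneg' [DecidableEq V] (x v : V) : (0:ℤ) ≤ chg x v := by
  simp only [chg]; split_ifs <;> norm_num

lemma chg_le_one (x v : V) : chg x v ≤ (1:ℤ) := by
  simp only [chg]; split_ifs <;> norm_num

lemma cc_sub_dip (s : V) (A : V → ℤ) (e : V × V) (u : V) :
    cc s (A - dip e) u ≤ cc s A u + (if u = e.1 then 1 else 0) := by
  have h0 : (0:ℝ) ≤ (if u = e.1 then 1 else 0) := by split_ifs <;> norm_num
  have h1 : (((chg s u - (A - dip e) u : ℤ)) : ℝ)
      ≤ ((chg s u - A u : ℤ) : ℝ) + (if u = e.1 then 1 else 0) := by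
    have h2 : (chg s u - (A - dip e) u : ℤ) = chg s u - A u + chg e.1 u - chg e.2 u := by
      simp only [dip, Pi.sub_apply]; ring
    rw [h2]
    have h3 := chg_nonneg' e.2 u
    have h4 : ((chg e.2 u : ℤ) : ℝ) ≥ 0 := by exact_mod_cast h3
    have h5 : ((chg e.1 u : ℤ) : ℝ) = (if u = e.1 then 1 else 0) := by
      simp only [chg]; split_ifs <;> simp
    push_cast
    rw [h5]
    linarith
  simp only [cc]
  apply max_le
  · have := le_max_left (0:ℝ) (((chg s u - A u : ℤ)) : ℝ)
    linarith
  · have := le_max_right (0:ℝ) (((chg s u - A u : ℤ)) : ℝ)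
    linarith

lemma cc_add_dip (s : V) (A : V → ℤ) (e : V × V) (u : V) :
    cc s (A + dip e) u ≤ cc s A u + (if u = e.2 then 1 else 0) := by
  have h0 : (0:ℝ) ≤ (if u = e.2 then 1 else 0) := by split_ifs <;> norm_num
  have h1 : (((chg s u - (A + dip e) u : ℤ)) : ℝ)
      ≤ ((chg s u - A u : ℤ) : ℝ) + (if u = e.2 then 1 else 0) := by
    have h2 : (chg s u - (A + dip e) u : ℤ) = chg s u - A u - chg e.1 u + chg e.2 u := by
      simp only [dip, Pi.add_apply, Pi.sub_apply]; ring
    rw [h2]
    have h3 := chg_nonneg' e.1 u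
    have h4 : ((chg e.1 u : ℤ) : ℝ) ≥ 0 := by exact_mod_cast h3
    have h5 : ((chg e.2 u : ℤ) : ℝ) = (if u = e.2 then 1 else 0) := by
      simp only [chg]; split_ifs <;> simp
    push_cast
    rw [h5]
    linarith
  simp only [cc]
  apply max_le
  · have := le_max_left (0:ℝ) (((chg s u - A u : ℤ)) : ℝ)
    linarith
  · have := le_max_right (0:ℝ) (((chg s u - A u : ℤ)) : ℝ)
    linarith

/-- Per-edge bound for the source sums. -/
lemma source_sub_le (hw : ∀ e, 0 ≤ w' e) (hΔ : ∀ e, 0 ≤ Δ e) (U : Finset V) (s : V) (j : ℕ)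
    (A : V → ℤ) (e : V × V) (he1 : e.1 ∈ U) :
    ∑ u ∈ U, cc s (A - dip e) u *
        (Zj E w' Δ j (A - dip e - chg s + chg u) * Z E w' (chg s - chg u))
      ≤ ∑ u ∈ U, cc s A u * (Zj E w' Δ j (A - dip e - chg s + chg u) * Z E w' (chg s - chg u))
        + Zj E w' Δ j (A - chg s + chg e.2) * Z E w' (chg s - chg e.1) := by
  have h1 : ∑ u ∈ U, cc s (A - dip e) u *
        (Zj E w' Δ j (A - dip e - chg s + chg u) * Z E w' (chg s - chg u))
      ≤ ∑ u ∈ U, (cc s A u + (if u = e.1 then 1 else 0)) *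
        (Zj E w' Δ j (A - dip e - chg s + chg u) * Z E w' (chg s - chg u)) := by
    apply Finset.sum_le_sum
    intro u _
    apply mul_le_mul_of_nonneg_right (cc_sub_dip s A e u)
    exact mul_nonneg (Zj_nonneg hw hΔ _ _) (Z_nonneg E hw _)
  refine h1.trans (le_of_eq ?_)
  simp only [add_mul, Finset.sum_add_distrib]
  congr 1
  simp only [ite_mul, one_mul, zero_mul]
  rw [Finset.sum_ite_eq' U e.1]
  simp only [he1, if_true]
  have e1 : A - dip e - chg s + chg e.1 = A - chg s + chg e.2 := by
    simp only [dip]; abel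
  rw [e1]

lemma source_add_le (hw : ∀ e, 0 ≤ w' e) (hΔ : ∀ e, 0 ≤ Δ e) (U : Finset V) (s : V) (j : ℕ)
    (A : V → ℤ) (e : V × V) (he2 : e.2 ∈ U) :
    ∑ u ∈ U, cc s (A + dip e) u *
        (Zj E w' Δ j (A + dip e - chg s + chg u) * Z E w' (chg s - chg u))
      ≤ ∑ u ∈ U, cc s A u * (Zj E w' Δ j (A + dip e - chg s + chg u) * Z E w' (chg s - chg u))
        + Zj E w' Δ j (A - chg s + chg e.1) * Z E w' (chg s - chg e.2) := by
  have h1 : ∑ u ∈ U, cc s (A + dip e) u *
        (Zj E w' Δ j (A + dip e - chg s + chg u) * Z E w' (chg s - chg u))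
      ≤ ∑ u ∈ U, (cc s A u + (if u = e.2 then 1 else 0)) *
        (Zj E w' Δ j (A + dip e - chg s + chg u) * Z E w' (chg s - chg u)) := by
    apply Finset.sum_le_sum
    intro u _
    apply mul_le_mul_of_nonneg_right (cc_add_dip s A e u)
    exact mul_nonneg (Zj_nonneg hw hΔ _ _) (Z_nonneg E hw _)
  refine h1.trans (le_of_eq ?_)
  simp only [add_mul, Finset.sum_add_distrib]
  congr 1
  simp only [ite_mul, one_mul, zero_mul]
  rw [Finset.sum_ite_eq' U e.2]
  simp only [he2, if_true]
  have e1 : A + dip e - chg s + chg e.2 = A - chg s + chg e.1 := by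
    simp only [dip]; abel
  rw [e1]

theorem Zj_gauss (hw : ∀ e, 0 ≤ w' e) (hΔ : ∀ e, 0 ≤ Δ e) (U : Finset V)
    (hU : ∀ e ∈ E, e.1 ∈ U ∧ e.2 ∈ U) (s : V) (hs : s ∈ U) : ∀ (j : ℕ) (A : V → ℤ),
    Zj E w' Δ j A * Z E w' 0 ≤
      ∑ u ∈ U, cc s A u * (Zj E w' Δ j (A - chg s + chg u) * Z E w' (chg s - chg u))
        + Er E w' Δ s j A
  | 0, A => by
      have := Z_gauss E hw U hU s hs A
      simpa [Zj, Er] using this
  | j + 1, A => by
      have hj : (0:ℝ) < (j : ℝ) + 1 := by positivity
      have hZ : ∀ q, ((j : ℝ) + 1) * Zj E w' Δ (j + 1) q = T E Δ (Zj E w' Δ j) q := by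
        intro q
        simp only [Zj]
        field_simp
      apply le_of_mul_le_mul_left _ hj
      -- left side
      have hL : ((j : ℝ) + 1) * (Zj E w' Δ (j + 1) A * Z E w' 0)
          = ∑ e ∈ E, (Δ e / 2) * (Zj E w' Δ j (A - dip e) * Z E w' 0
              + Zj E w' Δ j (A + dip e) * Z E w' 0) := by
        rw [← mul_assoc, hZ]
        simp only [T]
        rw [Finset.sum_mul]
        apply Finset.sum_congr rfl
        intro e _
        ring
      -- right side first part
      have hR1 : ((j : ℝ) + 1) * ∑ u ∈ U, cc s A u *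
            (Zj E w' Δ (j + 1) (A - chg s + chg u) * Z E w' (chg s - chg u))
          = ∑ e ∈ E, (Δ e / 2) *
            (∑ u ∈ U, cc s A u * (Zj E w' Δ j (A - dip e - chg s + chg u) * Z E w' (chg s - chg u))
            + ∑ u ∈ U, cc s A u *
                (Zj E w' Δ j (A + dip e - chg s + chg u) * Z E w' (chg s - chg u))) := by
        rw [Finset.mul_sum]
        have h1 : ∀ u ∈ U, ((j : ℝ) + 1) * (cc s A u *
            (Zj E w' Δ (j + 1) (A - chg s + chg u) * Z E w' (chg s - chg u)))
            = ∑ e ∈ E, (Δ e / 2) *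
              (cc s A u * (Zj E w' Δ j (A - dip e - chg s + chg u) * Z E w' (chg s - chg u))
              + cc s A u * (Zj E w' Δ j (A + dip e - chg s + chg u) * Z E w' (chg s - chg u))) := by
          intro u _
          have h2 : ((j : ℝ) + 1) * (cc s A u *
              (Zj E w' Δ (j + 1) (A - chg s + chg u) * Z E w' (chg s - chg u)))
              = cc s A u * ((((j : ℝ) + 1) * Zj E w' Δ (j + 1) (A - chg s + chg u))
                * Z E w' (chg s - chg u)) := by ring
          rw [h2, hZ]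
          simp only [T]
          rw [Finset.sum_mul, Finset.mul_sum]
          apply Finset.sum_congr rfl
          intro e _
          have e1 : A - chg s + chg u - dip e = A - dip e - chg s + chg u := by abel
          have e2 : A - chg s + chg u + dip e = A + dip e - chg s + chg u := by abel
          rw [e1, e2]
          ring
        rw [Finset.sum_congr rfl h1, Finset.sum_comm]
        apply Finset.sum_congr rfl
        intro e _
        rw [← Finset.mul_sum, Finset.sum_add_distrib]
      -- the error part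
      have hR2 := T_Er (E := E) (w' := w') (Δ := Δ) s j A
      have hkey : ∀ e ∈ E, (Δ e / 2) * (Zj E w' Δ j (A - dip e) * Z E w' 0
              + Zj E w' Δ j (A + dip e) * Z E w' 0)
          ≤ (Δ e / 2) *
            (∑ u ∈ U, cc s A u * (Zj E w' Δ j (A - dip e - chg s + chg u) * Z E w' (chg s - chg u))
            + ∑ u ∈ U, cc s A u *
                (Zj E w' Δ j (A + dip e - chg s + chg u) * Z E w' (chg s - chg u)))
            + (Δ e / 2) * (Zj E w' Δ j (A - chg s + chg e.2) * Z E w' (chg s - chg e.1)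
                + Zj E w' Δ j (A - chg s + chg e.1) * Z E w' (chg s - chg e.2))
            + (Δ e / 2) * (Er E w' Δ s j (A - dip e) + Er E w' Δ s j (A + dip e)) := by
        intro e he
        have h1 := Zj_gauss hw hΔ U hU s hs j (A - dip e)
        have h2 := Zj_gauss hw hΔ U hU s hs j (A + dip e)
        have h3 := source_sub_le (E := E) (w' := w') (Δ := Δ) hw hΔ U s j A e (hU e he).1
        have h4 := source_add_le (E := E) (w' := w') (Δ := Δ) hw hΔ U s j A e (hU e he).2
        have h5 : 0 ≤ Δ e / 2 := div_nonneg (hΔ e) (by norm_num)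
        rw [← mul_add, ← mul_add]
        apply mul_le_mul_of_nonneg_left _ h5
        linarith
      have hsum := Finset.sum_le_sum hkey
      rw [← hL] at hsum
      rw [Finset.sum_add_distrib, Finset.sum_add_distrib, ← hR1] at hsum
      have hE1 : ∑ e ∈ E, (Δ e / 2) * (Zj E w' Δ j (A - chg s + chg e.2) * Z E w' (chg s - chg e.1)
                + Zj E w' Δ j (A - chg s + chg e.1) * Z E w' (chg s - chg e.2))
          = Er E w' Δ s (j + 1) A := rfl
      have hE2 : ∑ e ∈ E, (Δ e / 2) * (Er E w' Δ s j (A - dip e) + Er E w' Δ s j (A + dip e))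
          = (j : ℝ) * Er E w' Δ s (j + 1) A := hR2
      rw [hE1, hE2] at hsum
      rw [mul_add]
      linarith

/-- Summed form of the extended Gaussian inequality. -/
theorem Z_add_gauss (hw : ∀ e, 0 ≤ w' e) (hΔ : ∀ e, 0 ≤ Δ e) (U : Finset V)
    (hU : ∀ e ∈ E, e.1 ∈ U ∧ e.2 ∈ U) (s : V) (hs : s ∈ U) (A : V → ℤ) :
    Z E (fun e => w' e + Δ e) A * Z E w' 0 ≤
      ∑ u ∈ U, cc s A u * (Z E (fun e => w' e + Δ e) (A - chg s + chg u) * Z E w' (chg s - chg u))
      + ∑ e ∈ E, (Δ e / 2) *
        (Z E (fun e => w' e + Δ e) (A - chg s + chg e.2) * Z E w' (chg s - chg e.1)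
          + Z E (fun e => w' e + Δ e) (A - chg s + chg e.1) * Z E w' (chg s - chg e.2)) := by
  have hL := (hasSum_Zj_Z (E := E) hw hΔ A).mul_right (Z E w' 0)
  have hR1 := hasSum_sum (s := U) (fun u _ =>
    ((hasSum_Zj_Z (E := E) hw hΔ (A - chg s + chg u)).mul_right
      (Z E w' (chg s - chg u))).mul_left (cc s A u))
  have hR2 : HasSum (fun j => Er E w' Δ s (j + 1) A) (∑ e ∈ E, (Δ e / 2) *
        (Z E (fun e => w' e + Δ e) (A - chg s + chg e.2) * Z E w' (chg s - chg e.1)
          + Z E (fun e => w' e + Δ e) (A - chg s + chg e.1) * Z E w' (chg s - chg e.2))) := by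
    exact hasSum_sum (s := E) (fun e _ =>
      (((hasSum_Zj_Z (E := E) hw hΔ (A - chg s + chg e.2)).mul_right
        (Z E w' (chg s - chg e.1))).add
      ((hasSum_Zj_Z (E := E) hw hΔ (A - chg s + chg e.1)).mul_right
        (Z E w' (chg s - chg e.2)))).mul_left (Δ e / 2))
  have hR3 : HasSum (fun j => Er E w' Δ s j A) (∑ e ∈ E, (Δ e / 2) *
        (Z E (fun e => w' e + Δ e) (A - chg s + chg e.2) * Z E w' (chg s - chg e.1)
          + Z E (fun e => w' e + Δ e) (A - chg s + chg e.1) * Z E w' (chg s - chg e.2))) := by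
    have := (hasSum_nat_add_iff (f := fun j => Er E w' Δ s j A) 1).mp hR2
    simpa [Er] using this
  exact hasSum_le (fun j => Zj_gauss hw hΔ U hU s hs j A) hL (hR1.add hR3)

end Two

/-! ### Correlations -/

/-- The two point function. -/
noncomputable def corr (E : Finset (V × V)) (w : V × V → ℝ) (x y : V) : ℝ :=
  Z E w (chg x - chg y) / Z E w 0

section Corr

variable {E : Finset (V × V)} {w w' Δ : V × V → ℝ}

lemma corr_nonneg (hw : ∀ e, 0 ≤ w e) (x y : V) : 0 ≤ corr E w x y :=
  div_nonneg (Z_nonneg E hw _) (Z_zero_pos E hw).le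

lemma corr_self (hw : ∀ e, 0 ≤ w e) (x : V) : corr E w x x = 1 := by
  have : chg x - chg x = (0 : V → ℤ) := sub_self _
  rw [corr, this, div_self (Z_zero_pos E hw).ne']

lemma corr_symm (x y : V) : corr E w x y = corr E w y x := by
  have : chg x - chg y = -(chg y - chg x) := by abel
  rw [corr, corr, this, Z_neg]

lemma corr_triple (hw : ∀ e, 0 ≤ w e) (a b c : V) :
    corr E w a b * corr E w b c ≤ corr E w a c := by
  have h := Z_triple E hw a b c
  have h0 := Z_zero_pos E hw
  unfold corr
  rw [div_mul_div_comm, div_le_div_iff₀ (mul_pos h0 h0) h0]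
  nlinarith [mul_le_mul_of_nonneg_right h h0.le]

lemma corr_le_one (hw : ∀ e, 0 ≤ w e) (a b : V) : corr E w a b ≤ 1 := by
  have h := corr_triple (E := E) hw a b a
  rw [corr_self hw, corr_symm b a] at h
  have h0 := corr_nonneg (E := E) hw a b
  nlinarith

/-- Monotonicity in the coupling (Griffiths type). -/
theorem corr_mono (hw : ∀ e, 0 ≤ w' e) (hΔ : ∀ e, 0 ≤ Δ e) (x y : V) :
    corr E w' x y ≤ corr E (fun e => w' e + Δ e) x y := by
  have hw2 : ∀ e, 0 ≤ w' e + Δ e := fun e => add_nonneg (hw e) (hΔ e)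
  have h := Z_add_gram (E := E) hw hΔ 0 (chg x - chg y)
  have h1 : (0 : V → ℤ) + (chg x - chg y) = chg x - chg y := zero_add _
  have h2 : (0 : V → ℤ) - (chg x - chg y) = -(chg x - chg y) := zero_sub _
  rw [h1, h2, Z_neg] at h
  unfold corr
  rw [div_le_div_iff₀ (Z_zero_pos E hw) (Z_zero_pos E hw2)]
  nlinarith

/-- The master inequality. -/
theorem corr_master (hw : ∀ e, 0 ≤ w' e) (hΔ : ∀ e, 0 ≤ Δ e) (s x : V) :
    corr E (fun e => w' e + Δ e) s x ≤ corr E w' s x + ∑ e ∈ E, (Δ e / 2) *
      (corr E w' s e.1 * corr E (fun e => w' e + Δ e) e.2 x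
        + corr E w' s e.2 * corr E (fun e => w' e + Δ e) e.1 x) := by
  have hw2 : ∀ e, 0 ≤ w' e + Δ e := fun e => add_nonneg (hw e) (hΔ e)
  set U : Finset V := insert s (insert x (E.image Prod.fst ∪ E.image Prod.snd)) with hUdef
  have hU : ∀ e ∈ E, e.1 ∈ U ∧ e.2 ∈ U := by
    intro e he
    constructor
    · rw [hUdef]
      apply Finset.mem_insert_of_mem
      apply Finset.mem_insert_of_mem
      apply Finset.mem_union_left
      exact Finset.mem_image_of_mem _ he
    · rw [hUdef]
      apply Finset.mem_insert_of_mem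
      apply Finset.mem_insert_of_mem
      apply Finset.mem_union_right
      exact Finset.mem_image_of_mem _ he
  have hs : s ∈ U := Finset.mem_insert_self _ _
  have hx : x ∈ U := Finset.mem_insert_of_mem (Finset.mem_insert_self _ _)
  have h := Z_add_gauss (E := E) hw hΔ U hU s hs (chg s - chg x)
  set Zw := Z E (fun e => w' e + Δ e) with hZw
  set Z' := Z E w' with hZ'
  -- collapse the first sum
  have hcc : ∀ u, cc s (chg s - chg x) u = if u = x then 1 else 0 := by
    intro u
    simp only [cc, Pi.sub_apply]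
    have : (chg s u - (chg s u - chg x u) : ℤ) = chg x u := by ring
    rw [this]
    simp only [chg]
    split_ifs <;> simp
  have hsum : ∑ u ∈ U, cc s (chg s - chg x) u *
      (Zw (chg s - chg x - chg s + chg u) * Z' (chg s - chg u)) = Zw 0 * Z' (chg s - chg x) := by
    simp only [hcc, ite_mul, one_mul, zero_mul]
    rw [Finset.sum_ite_eq' U x]
    simp only [hx, if_true]
    have : chg s - chg x - chg s + chg x = (0 : V → ℤ) := by abel
    rw [this]
  rw [hsum] at h
  have hZw0 : 0 < Zw 0 := Z_zero_pos E hw2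
  have hZ'0 : 0 < Z' 0 := Z_zero_pos E hw
  -- divide
  have hc1 : ∀ a b, corr E w' a b = Z' (chg a - chg b) / Z' 0 := fun _ _ => rfl
  have hc2 : ∀ a b, corr E (fun e => w' e + Δ e) a b = Zw (chg a - chg b) / Zw 0 := fun _ _ => rfl
  have hdiv : Zw (chg s - chg x) * Z' 0 / (Zw 0 * Z' 0) = corr E (fun e => w' e + Δ e) s x := by
    rw [hc2]
    field_simp
  rw [← hdiv]
  have h2 : corr E w' s x + ∑ e ∈ E, (Δ e / 2) *
      (corr E w' s e.1 * corr E (fun e => w' e + Δ e) e.2 x
        + corr E w' s e.2 * corr E (fun e => w' e + Δ e) e.1 x)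
      = (Zw 0 * Z' (chg s - chg x) + ∑ e ∈ E, (Δ e / 2) *
        (Zw (chg s - chg x - chg s + chg e.2) * Z' (chg s - chg e.1)
          + Zw (chg s - chg x - chg s + chg e.1) * Z' (chg s - chg e.2))) / (Zw 0 * Z' 0) := by
    rw [add_div, Finset.sum_div]
    congr 1
    · rw [hc1]
      field_simp
    · apply Finset.sum_congr rfl
      intro e _
      have e1 : chg s - chg x - chg s + chg e.2 = chg e.2 - chg x := by abel
      have e2 : chg s - chg x - chg s + chg e.1 = chg e.1 - chg x := by abel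
      rw [e1, e2, hc1, hc1, hc2, hc2]
      field_simp
  rw [h2]
  exact div_le_div_of_nonneg_right h (by positivity)

end Corr

end Vale.Agent.Lib.P159
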