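import Vale.Agent.Lib.P159.Lattice

/-!
# The infinite volume two point function
-/

namespace Vale.Agent.Lib.P159

open Filter Set Topology

set_option linter.unusedSectionVars false

/-- The infinite volume two point function. -/
noncomputable def cInf (b : ℝ) (x y : ℤ × ℤ) : ℝ := ⨆ R : ℕ, cf R b x y

variable {b b' : ℝ} {x y z : ℤ × ℤ}

lemma cf_bdd (hb : 0 ≤ b) (x y : ℤ × ℤ) : BddAbove (range (fun R : ℕ => cf R b x y)) := by
  refine ⟨1, ?_⟩
  rintro _ ⟨R, rfl⟩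
  exact cf_le_one hb R x y

lemma cf_le_cInf (hb : 0 ≤ b) (R : ℕ) (x y : ℤ × ℤ) : cf R b x y ≤ cInf b x y :=
  le_ciSup (cf_bdd hb x y) R

lemma cInf_le {a : ℝ} (h : ∀ R, cf R b x y ≤ a) : cInf b x y ≤ a := ciSup_le h

lemma tendsto_cf (hb : 0 ≤ b) (x y : ℤ × ℤ) :
    Tendsto (fun R : ℕ => cf R b x y) atTop (𝓝 (cInf b x y)) := by
  apply tendsto_atTop_ciSup _ (cf_bdd hb x y)
  intro R R' h
  exact cf_mono_R hb h x y

lemma cInf_nonneg (hb : 0 ≤ b) (x y : ℤ × ℤ) : 0 ≤ cInf b x y :=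
  (cf_nonneg hb 0 x y).trans (cf_le_cInf hb 0 x y)

lemma cInf_le_one (hb : 0 ≤ b) (x y : ℤ × ℤ) : cInf b x y ≤ 1 :=
  cInf_le (fun R => cf_le_one hb R x y)

lemma cInf_self (hb : 0 ≤ b) (x : ℤ × ℤ) : cInf b x x = 1 := by
  apply le_antisymm (cInf_le_one hb x x)
  have := cf_le_cInf hb 0 x x
  rwa [cf_self hb] at this

lemma cInf_symm (b : ℝ) (x y : ℤ × ℤ) : cInf b x y = cInf b y x := by
  unfold cInf
  simp only [cf_symm _ b x y]

lemma cInf_triple (hb : 0 ≤ b) (x y z : ℤ × ℤ) : cInf b x y * cInf b y z ≤ cInf b x z := by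
  have h := (tendsto_cf hb x y).mul (tendsto_cf hb y z)
  apply le_of_tendsto' h
  intro R
  exact (cf_triple hb R x y z).trans (cf_le_cInf hb R x z)

lemma cInf_mono_b (hb : 0 ≤ b) (h : b ≤ b') (x y : ℤ × ℤ) : cInf b x y ≤ cInf b' x y := by
  apply cInf_le
  intro R
  exact (cf_mono_b hb h R x y).trans (cf_le_cInf (hb.trans h) R x y)

/-! ### Lattice symmetries -/

/-- A symmetry of the lattice which moves boxes by a bounded amount. -/
def IsSym (ψ : Equiv.Perm (ℤ × ℤ)) : Prop :=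
  (∀ x y, Adj x y → Adj (ψ x) (ψ y)) ∧ ∃ K : ℕ, ∀ (R : ℕ) (x : ℤ × ℤ), x ∈ box R → ψ x ∈ box (R + K)

lemma cInf_le_sym (hb : 0 ≤ b) {ψ : Equiv.Perm (ℤ × ℤ)} (h : IsSym ψ) (x y : ℤ × ℤ) :
    cInf b x y ≤ cInf b (ψ x) (ψ y) := by
  obtain ⟨hA, K, hK⟩ := h
  apply cInf_le
  intro R
  have h1 : imgE ψ (D R) ⊆ D (R + K) := by
    intro e he
    obtain ⟨f, hf, rfl⟩ := Finset.mem_image.mp he
    rw [mem_D] at hf ⊢
    exact ⟨hK R _ hf.1, hK R _ hf.2.1, hA _ _ hf.2.2⟩
  have h2 : cf R b x y ≤ cf (R + K) b (ψ x) (ψ y) := by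
    unfold cf
    rw [← corr_imgE ψ (D R) (b / 2) x y]
    exact corr_subset h1 (by positivity) _ _
  exact h2.trans (cf_le_cInf hb _ _ _)

/-- Translation by `t`. -/
def shiftP (t : ℤ × ℤ) : Equiv.Perm (ℤ × ℤ) := Equiv.addRight t

lemma shiftP_apply (t x : ℤ × ℤ) : shiftP t x = x + t := rfl

lemma isSym_shift (t : ℤ × ℤ) : IsSym (shiftP t) := by
  constructor
  · intro x y h
    unfold Adj at h ⊢
    simpa [shiftP_apply] using h
  · refine ⟨t.1.natAbs + t.2.natAbs, ?_⟩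
    intro R x hx
    rw [mem_box] at hx ⊢
    simp only [shiftP_apply, Prod.fst_add, Prod.snd_add]
    omega

/-- Reflection in the first coordinate. -/
def flipP : Equiv.Perm (ℤ × ℤ) where
  toFun x := (-x.1, x.2)
  invFun x := (-x.1, x.2)
  left_inv x := by simp
  right_inv x := by simp

lemma flipP_apply (x : ℤ × ℤ) : flipP x = (-x.1, x.2) := rfl

lemma isSym_flip : IsSym flipP := by
  constructor
  · intro x y h
    unfold Adj at h ⊢
    simp only [flipP_apply]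
    have : -x.1 - -y.1 = -(x.1 - y.1) := by ring
    rw [this, abs_neg]
    exact h
  · refine ⟨0, ?_⟩
    intro R x hx
    rw [mem_box] at hx ⊢
    simp only [flipP_apply, add_zero]
    omega

/-- Exchange of the coordinates. -/
def swapP : Equiv.Perm (ℤ × ℤ) := Equiv.prodComm ℤ ℤ

lemma swapP_apply (x : ℤ × ℤ) : swapP x = (x.2, x.1) := rfl

lemma isSym_swap : IsSym swapP := by
  constructor
  · intro x y h
    unfold Adj at h ⊢
    simp only [swapP_apply]
    rw [add_comm]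
    exact h
  · refine ⟨0, ?_⟩
    intro R x hx
    rw [mem_box] at hx ⊢
    simp only [swapP_apply, add_zero]
    omega

lemma cInf_shift (hb : 0 ≤ b) (t x y : ℤ × ℤ) : cInf b (x + t) (y + t) = cInf b x y := by
  apply le_antisymm
  · have := cInf_le_sym hb (isSym_shift (-t)) (x + t) (y + t)
    simpa [shiftP_apply] using this
  · exact cInf_le_sym hb (isSym_shift t) x y

lemma cInf_flip (hb : 0 ≤ b) (x y : ℤ × ℤ) : cInf b (-x.1, x.2) (-y.1, y.2) = cInf b x y := by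
  apply le_antisymm
  · have := cInf_le_sym hb isSym_flip (-x.1, x.2) (-y.1, y.2)
    simpa [flipP_apply] using this
  · exact cInf_le_sym hb isSym_flip x y

lemma cInf_swap (hb : 0 ≤ b) (x y : ℤ × ℤ) : cInf b (x.2, x.1) (y.2, y.1) = cInf b x y := by
  apply le_antisymm
  · have := cInf_le_sym hb isSym_swap (x.2, x.1) (y.2, y.1)
    simpa [swapP_apply] using this
  · exact cInf_le_sym hb isSym_swap x y

lemma cInf_eq_zero_base (hb : 0 ≤ b) (x y : ℤ × ℤ) : cInf b x y = cInf b 0 (y - x) := by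
  have := cInf_shift hb (-x) x y
  have h1 : x + -x = 0 := by simp
  have h2 : y + -x = y - x := by abel
  rw [h1, h2] at this
  exact this.symm

/-! ### The axis, the mass -/

/-- A point on the positive first axis. -/
def ax (r : ℕ) : ℤ × ℤ := ((r : ℤ), 0)

lemma adj_ax (r : ℕ) : Adj (ax r) (ax (r + 1)) := by
  unfold Adj ax
  simp

lemma ax_mem_box (r : ℕ) : ax r ∈ box r := by
  rw [mem_box]
  simp [ax]

lemma cInf_ax_pos (hb : 0 < b) : ∀ r : ℕ, 0 < cInf b 0 (ax r)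
  | 0 => by
      have : ax 0 = (0 : ℤ × ℤ) := rfl
      rw [this, cInf_self hb.le]; norm_num
  | r + 1 => by
      have h1 := cInf_triple hb.le 0 (ax r) (ax (r + 1))
      have h2 := cInf_ax_pos hb r
      have h3 : 0 < cf (r + 1) b (ax r) (ax (r + 1)) :=
        cf_adj_pos hb (adj_ax r) (box_mono (Nat.le_succ r) (ax_mem_box r)) (ax_mem_box (r + 1))
      have h4 := cf_le_cInf hb.le (r + 1) (ax r) (ax (r + 1))
      have h5 : 0 < cInf b (ax r) (ax (r + 1)) := lt_of_lt_of_le h3 h4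
      exact lt_of_lt_of_le (mul_pos h2 h5) h1

lemma cInf_ax_add (hb : 0 ≤ b) (r s : ℕ) :
    cInf b 0 (ax r) * cInf b 0 (ax s) ≤ cInf b 0 (ax (r + s)) := by
  have h1 := cInf_triple hb 0 (ax r) (ax (r + s))
  have h2 : cInf b (ax r) (ax (r + s)) = cInf b 0 (ax s) := by
    rw [cInf_eq_zero_base hb]
    congr 1
    ext <;> simp [ax]
  rwa [h2] at h1

/-- The function whose growth gives the mass. -/
noncomputable def uu (b : ℝ) (r : ℕ) : ℝ := -Real.log (cInf b 0 (ax r))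

lemma uu_nonneg (hb : 0 ≤ b) (r : ℕ) : 0 ≤ uu b r := by
  unfold uu
  have := Real.log_nonpos (cInf_nonneg hb 0 (ax r)) (cInf_le_one hb 0 (ax r))
  linarith

lemma uu_subadd (hb : 0 < b) : Subadditive (uu b) := by
  intro r s
  unfold uu
  have h1 := cInf_ax_add hb.le r s
  have h2 := cInf_ax_pos hb r
  have h3 := cInf_ax_pos hb s
  have h4 := Real.log_le_log (mul_pos h2 h3) h1
  rw [Real.log_mul h2.ne' h3.ne'] at h4
  linarith

lemma uu_bdd (hb : 0 ≤ b) : BddBelow (range (fun n : ℕ => uu b n / (n : ℝ))) := by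
  refine ⟨0, ?_⟩
  rintro _ ⟨n, rfl⟩
  exact div_nonneg (uu_nonneg hb n) (by positivity)

/-- The limit defining `C_b(r)`. -/
lemma tendsto_xyExpect (hb : 0 < b) (r : ℕ) :
    Tendsto (fun R : ℕ => xyExpect R b (fun θ => Real.cos (θ (0, 0) - θ ((r : ℤ), 0))))
      atTop (𝓝 (cInf b 0 (ax r))) := by
  refine (tendsto_cf hb.le 0 (ax r)).congr' ?_
  filter_upwards [eventually_ge_atTop r] with R hR
  symm
  exact xyExpect_eq R hb.le (zero_mem_box R) (box_mono hR (ax_mem_box r))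

lemma corrC_eq (hb : 0 < b) (r : ℕ) : corrC b r = cInf b 0 (ax r) :=
  (tendsto_xyExpect hb r).limUnder_eq

lemma tendsto_mass_aux (hb : 0 < b) :
    Tendsto (fun r : ℕ => -(1 / (r : ℝ)) * Real.log (corrC b r)) atTop
      (𝓝 (uu_subadd hb).lim) := by
  have h := (uu_subadd hb).tendsto_lim (uu_bdd hb.le)
  refine h.congr ?_
  intro r
  rw [corrC_eq hb]
  unfold uu
  ring

lemma mass_eq (hb : 0 < b) : mass b = (uu_subadd hb).lim :=
  (tendsto_mass_aux hb).limUnder_eq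

/-- The limit defining `m(b)`. -/
lemma tendsto_mass (hb : 0 < b) :
    Tendsto (fun r : ℕ => -(1 / (r : ℝ)) * Real.log (corrC b r)) atTop (𝓝 (mass b)) := by
  rw [mass_eq hb]
  exact tendsto_mass_aux hb

lemma mass_nonneg (hb : 0 < b) : 0 ≤ mass b := by
  apply ge_of_tendsto' (tendsto_mass hb)
  intro r
  rw [corrC_eq hb]
  have h1 := Real.log_nonpos (cInf_nonneg hb.le 0 (ax r)) (cInf_le_one hb.le 0 (ax r))
  have h2 : 0 ≤ 1 / (r : ℝ) := by positivity
  nlinarith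

/-- Exponential bound with the mass at every distance along the axis. -/
lemma cInf_ax_le (hb : 0 < b) (r : ℕ) : cInf b 0 (ax r) ≤ Real.exp (-(mass b * r)) := by
  by_cases hr : r = 0
  · subst hr
    simpa using cInf_le_one hb.le 0 (ax 0)
  · have h1 := (uu_subadd hb).lim_le_div (uu_bdd hb.le) hr
    rw [← mass_eq hb] at h1
    have hr' : (0:ℝ) < r := by exact_mod_cast Nat.pos_of_ne_zero hr
    have h2 : mass b * r ≤ uu b r := (le_div_iff₀ hr').mp h1
    unfold uu at h2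
    have h3 := cInf_ax_pos hb r
    rw [← Real.exp_log h3]
    apply Real.exp_le_exp.mpr
    linarith

/-- The mass does not increase with `b`. -/
lemma mass_anti (hb : 0 < b) (h : b ≤ b') : mass b' ≤ mass b := by
  have hb' : 0 < b' := lt_of_lt_of_le hb h
  apply le_of_tendsto_of_tendsto' (tendsto_mass hb') (tendsto_mass hb)
  intro r
  rw [corrC_eq hb, corrC_eq hb']
  have h1 := cInf_mono_b hb.le h 0 (ax r)
  have h2 := Real.log_le_log (cInf_ax_pos hb r) h1
  have h3 : 0 ≤ 1 / (r : ℝ) := by positivity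
  nlinarith

/-! ### Off-axis bounds -/

lemma cInf_int_axis (hb : 0 ≤ b) (k : ℤ) : cInf b 0 (k, 0) = cInf b 0 (ax k.natAbs) := by
  rcases Int.le_total 0 k with h | h
  · congr 1
    ext
    · simp [ax, abs_of_nonneg h]
    · simp [ax]
  · have h1 := cInf_flip hb 0 (k, 0)
    simp only at h1
    have h2 : ((-(0 : ℤ × ℤ).1, (0 : ℤ × ℤ).2) : ℤ × ℤ) = 0 := by ext <;> simp
    rw [h2] at h1
    rw [← h1]
    congr 1
    ext
    · simp [ax, abs_of_nonpos h]
    · simp [ax]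

lemma cInf_sq_le (hb : 0 ≤ b) (a c : ℤ) :
    cInf b 0 (a, c) * cInf b 0 (a, c) ≤ cInf b 0 (2 * a, 0) := by
  have h1 := cInf_triple hb 0 (a, c) (2 * a, 0)
  have h2 : cInf b (a, c) (2 * a, 0) = cInf b 0 (a, c) := by
    have h3 := cInf_flip hb (a, c) (2 * a, 0)
    simp only at h3
    rw [← h3]
    have h4 := cInf_shift hb (2 * a, 0) (-a, c) (-(2 * a), 0)
    rw [← h4, cInf_symm]
    congr 1
    · ext <;> simp
    · ext
      · simp; ring
      · simp
  rwa [h2] at h1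

lemma cInf_le_exp_fst (hb : 0 < b) (a c : ℤ) :
    cInf b 0 (a, c) ≤ Real.exp (-(mass b * (a.natAbs : ℝ))) := by
  have h1 := cInf_sq_le hb.le a c
  rw [cInf_int_axis hb.le] at h1
  have h2 := cInf_ax_le hb (2 * a).natAbs
  have h3 : (((2 * a).natAbs : ℕ) : ℝ) = 2 * (a.natAbs : ℝ) := by
    have : (2 * a).natAbs = 2 * a.natAbs := by omega
    rw [this]; push_cast; ring
  rw [h3] at h2
  have h4 : Real.exp (-(mass b * (2 * (a.natAbs : ℝ))))
      = Real.exp (-(mass b * (a.natAbs : ℝ))) * Real.exp (-(mass b * (a.natAbs : ℝ))) := by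
    rw [← Real.exp_add]; congr 1; ring
  rw [h4] at h2
  have h5 := cInf_nonneg hb.le 0 (a, c)
  have h6 := Real.exp_pos (-(mass b * (a.natAbs : ℝ)))
  by_contra hcon
  push Not at hcon
  nlinarith

lemma cInf_le_exp_snd (hb : 0 < b) (a c : ℤ) :
    cInf b 0 (a, c) ≤ Real.exp (-(mass b * (c.natAbs : ℝ))) := by
  have h1 := cInf_swap hb.le 0 (c, a)
  simp only at h1
  have h2 : (((0 : ℤ × ℤ).2, (0 : ℤ × ℤ).1) : ℤ × ℤ) = 0 := rfl
  rw [h2] at h1
  rw [h1]
  exact cInf_le_exp_fst hb c a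

/-- The summable bound on the two point function. -/
lemma cInf_le_pow (hb : 0 < b) (a c : ℤ) :
    cInf b 0 (a, c) ≤ Real.exp (-(mass b / 2)) ^ a.natAbs * Real.exp (-(mass b / 2)) ^ c.natAbs := by
  have hm := mass_nonneg hb
  have h0 : Real.exp (-(mass b / 2)) ^ a.natAbs * Real.exp (-(mass b / 2)) ^ c.natAbs
      = Real.exp (-(mass b * (((a.natAbs : ℝ) + (c.natAbs : ℝ)) / 2))) := by
    rw [← Real.exp_nat_mul, ← Real.exp_nat_mul, ← Real.exp_add]
    congr 1
    ring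
  rw [h0]
  rcases le_total (a.natAbs : ℝ) (c.natAbs : ℝ) with h | h
  · refine (cInf_le_exp_snd hb a c).trans (Real.exp_le_exp.mpr ?_)
    have : ((a.natAbs : ℝ) + (c.natAbs : ℝ)) / 2 ≤ (c.natAbs : ℝ) := by linarith
    nlinarith
  · refine (cInf_le_exp_fst hb a c).trans (Real.exp_le_exp.mpr ?_)
    have : ((a.natAbs : ℝ) + (c.natAbs : ℝ)) / 2 ≤ (a.natAbs : ℝ) := by linarith
    nlinarith

end Vale.Agent.Lib.P159
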