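import Vale.Agent.Lib.P159.Defs
import Vale.Agent.Lib.P159.Extend
import Vale.Agent.Lib.P159.Bridge

/-!
# The lattice: boxes, their edge sets, and the finite volume two point function
-/

namespace Vale.Agent.Lib.P159

open MeasureTheory Filter Set

set_option linter.unusedSectionVars false

/-- Ordered nearest neighbour pairs of the box. -/
noncomputable def D (R : ℕ) : Finset ((ℤ × ℤ) × (ℤ × ℤ)) :=
  (box R ×ˢ box R).filter (fun e => Adj e.1 e.2)

lemma mem_D {R : ℕ} {e : (ℤ × ℤ) × (ℤ × ℤ)} : e ∈ D R ↔ e.1 ∈ box R ∧ e.2 ∈ box R ∧ Adj e.1 e.2 := by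
  simp [D, and_assoc]

lemma mem_box {R : ℕ} {x : ℤ × ℤ} :
    x ∈ box R ↔ -(R : ℤ) ≤ x.1 ∧ x.1 ≤ R ∧ -(R : ℤ) ≤ x.2 ∧ x.2 ≤ R := by
  simp [box, and_assoc]

lemma zero_mem_box (R : ℕ) : ((0, 0) : ℤ × ℤ) ∈ box R := by
  rw [mem_box]; simp

lemma box_mono {R R' : ℕ} (h : R ≤ R') : box R ⊆ box R' := by
  intro x hx
  rw [mem_box] at hx ⊢
  have h' : (R : ℤ) ≤ R' := by exact_mod_cast h
  omega

lemma D_mono {R R' : ℕ} (h : R ≤ R') : D R ⊆ D R' := by
  intro e he
  rw [mem_D] at he ⊢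
  exact ⟨box_mono h he.1, box_mono h he.2.1, he.2.2⟩

/-- The finite volume two point function. -/
noncomputable def cf (R : ℕ) (b : ℝ) (x y : ℤ × ℤ) : ℝ :=
  corr (D R) (fun _ => b / 2) x y

/-! ### The finite volume expectation is the two point function -/

lemma spinExtend_eq {R : ℕ} (θ : box R → ℝ) {x : ℤ × ℤ} (hx : x ∈ box R) :
    spinExtend θ x = dot (box R) (chg x) θ := by
  rw [dot_chg _ x hx]
  simp [spinExtend, hx]

lemma energy_eq (R : ℕ) (b : ℝ) (θ : box R → ℝ) :
    b * xyEnergy R (spinExtend θ) = Ham (box R) (D R) (fun _ => b / 2) θ := by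
  unfold xyEnergy Ham D
  rw [Finset.sum_filter, Finset.sum_product, ← mul_assoc, Finset.mul_sum]
  apply Finset.sum_congr rfl
  intro x hx
  rw [Finset.mul_sum]
  apply Finset.sum_congr rfl
  intro y hy
  split_ifs with h
  · rw [spinExtend_eq θ hx, spinExtend_eq θ hy]
    have : dot (box R) (dip (x, y)) θ = dot (box R) (chg x) θ - dot (box R) (chg y) θ := by
      simp only [dip]
      rw [dot_sub]
    rw [this]
    ring
  · simp

theorem xyExpect_eq (R : ℕ) {b : ℝ} (hb : 0 ≤ b) {x y : ℤ × ℤ} (hx : x ∈ box R) (hy : y ∈ box R) :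
    xyExpect R b (fun θ => Real.cos (θ x - θ y)) = cf R b x y := by
  have hw : ∀ e : (ℤ × ℤ) × (ℤ × ℤ), 0 ≤ (fun _ => b / 2 : _ → ℝ) e := fun _ => by positivity
  have hE : ∀ e ∈ D R, e.1 ∈ box R ∧ e.2 ∈ box R := by
    intro e he
    rw [mem_D] at he
    exact ⟨he.1, he.2.1⟩
  have h1 : ∀ θ : box R → ℝ, Real.cos (spinExtend θ x - spinExtend θ y)
      = Real.cos (dot (box R) (chg x - chg y) θ) := by
    intro θ
    rw [dot_sub, spinExtend_eq θ hx, spinExtend_eq θ hy]
  have hp1 : ∀ v, v ∉ box R → (chg x - chg y : ℤ × ℤ → ℤ) v = 0 := by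
    intro v hv
    have h3 : v ≠ x := fun h => hv (h ▸ hx)
    have h4 : v ≠ y := fun h => hv (h ▸ hy)
    simp [chg, h3, h4]
  have hnum := integral_cos_exp (box R) (D R) hw hE (chg x - chg y) hp1
  have hden := integral_cos_exp (box R) (D R) hw hE 0 (fun _ _ => rfl)
  have h0 : ∀ θ : box R → ℝ, dot (box R) (0 : ℤ × ℤ → ℤ) θ = 0 := by
    intro θ; simp [dot]
  simp only [h0, Real.cos_zero, one_mul] at hden
  unfold xyExpect cf corr
  simp only [energy_eq, h1]
  have hc : (Set.pi Set.univ (fun _ : box R => Set.Icc (0:ℝ) (2 * Real.pi))) = cube (box R) := rfl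
  rw [hc, hnum, hden]
  have h2 : ((2 * Real.pi) ^ (box R).card : ℝ) ≠ 0 := by positivity
  rw [mul_div_mul_left _ _ h2]

/-! ### Restriction of couplings -/

section Restrict

variable {V : Type*} [DecidableEq V]

lemma T_restrict {E E' : Finset (V × V)} (h : E ⊆ E') (c : ℝ) (g : (V → ℤ) → ℝ) (p : V → ℤ) :
    T E' (fun e => if e ∈ E then c else 0) g p = T E (fun _ => c) g p := by
  unfold T
  symm
  have h1 : ∑ e ∈ E, c / 2 * (g (p - dip e) + g (p + dip e))
      = ∑ e ∈ E, (if e ∈ E then c else 0) / 2 * (g (p - dip e) + g (p + dip e)) := by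
    apply Finset.sum_congr rfl
    intro e he
    simp [he]
  rw [h1]
  apply Finset.sum_subset h
  intro e _ he
  simp [he]

lemma mom_restrict {E E' : Finset (V × V)} (h : E ⊆ E') (c : ℝ) :
    ∀ m, mom E' (fun e => if e ∈ E then c else 0) m = mom E (fun _ => c) m
  | 0 => rfl
  | m + 1 => by
      funext p
      simp only [mom]
      rw [mom_restrict h c m, T_restrict h]

lemma corr_restrict {E E' : Finset (V × V)} (h : E ⊆ E') (c : ℝ) (x y : V) :
    corr E' (fun e => if e ∈ E then c else 0) x y = corr E (fun _ => c) x y := by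
  unfold corr Z
  simp only [mom_restrict h c]

/-- The two point function increases with the edge set. -/
lemma corr_subset {E E' : Finset (V × V)} (h : E ⊆ E') {c : ℝ} (hc : 0 ≤ c) (x y : V) :
    corr E (fun _ => c) x y ≤ corr E' (fun _ => c) x y := by
  have hw : ∀ e : V × V, 0 ≤ (if e ∈ E then c else 0 : ℝ) := by
    intro e; split_ifs <;> simp [hc]
  have hΔ : ∀ e : V × V, 0 ≤ (if e ∈ E then 0 else c : ℝ) := by
    intro e; split_ifs <;> simp [hc]
  have h1 := corr_mono (E := E') hw hΔ x y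
  have h2 : (fun e : V × V => (if e ∈ E then c else 0 : ℝ) + (if e ∈ E then 0 else c : ℝ))
      = fun _ => c := by
    funext e; split_ifs <;> simp
  rw [h2, corr_restrict h] at h1
  exact h1

/-- Correlations to a vertex not touched by any edge vanish. -/
lemma mom_untouched {E : Finset (V × V)} (w : V × V → ℝ) {u : V}
    (hu : ∀ e ∈ E, e.1 ≠ u ∧ e.2 ≠ u) : ∀ (m : ℕ) (p : V → ℤ), p u ≠ 0 → mom E w m p = 0
  | 0, p, hp => by
      apply delta0_of_ne
      intro h
      apply hp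
      rw [h]; rfl
  | m + 1, p, hp => by
      simp only [mom, T]
      apply Finset.sum_eq_zero
      intro e he
      have h1 : dip e u = 0 := by
        have h2 := hu e he
        have h3 : u ≠ e.1 := fun h => h2.1 h.symm
        have h4 : u ≠ e.2 := fun h => h2.2 h.symm
        simp [dip, chg, h3, h4]
      have h5 : (p - dip e) u ≠ 0 := by simpa [h1] using hp
      have h6 : (p + dip e) u ≠ 0 := by simpa [h1] using hp
      rw [mom_untouched w hu m _ h5, mom_untouched w hu m _ h6]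
      simp

lemma corr_untouched {E : Finset (V × V)} (w : V × V → ℝ) {x y : V}
    (hu : ∀ e ∈ E, e.1 ≠ y ∧ e.2 ≠ y) (hxy : x ≠ y) : corr E w x y = 0 := by
  have h1 : (chg x - chg y : V → ℤ) y ≠ 0 := by
    simp [chg, hxy.symm]
  unfold corr Z
  simp only [mom_untouched w hu _ _ h1]
  simp

/-- The image of an edge set under a permutation of the vertices. -/
def imgE (ψ : Equiv.Perm V) (E : Finset (V × V)) : Finset (V × V) :=
  E.image (fun e => (ψ e.1, ψ e.2))

lemma chg_comp (ψ : Equiv.Perm V) (a : V) : (chg (ψ a)) ∘ ψ = chg a := by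
  funext v
  simp [chg]

lemma dip_comp (ψ : Equiv.Perm V) (e : V × V) : (dip (ψ e.1, ψ e.2)) ∘ ψ = dip e := by
  funext v
  simp [dip, chg]

lemma mom_imgE (ψ : Equiv.Perm V) (E : Finset (V × V)) (c : ℝ) :
    ∀ (m : ℕ) (p : V → ℤ), mom (imgE ψ E) (fun _ => c) m p = mom E (fun _ => c) m (p ∘ ψ)
  | 0, p => by
      show delta0 p = delta0 (p ∘ ψ)
      by_cases h : p = 0
      · subst h
        have : (0 : V → ℤ) ∘ ψ = 0 := rfl
        rw [this]
      · have h' : p ∘ ψ ≠ 0 := by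
          intro h2
          apply h
          funext v
          have := congrFun h2 (ψ.symm v)
          simpa using this
        rw [delta0_of_ne h, delta0_of_ne h']
  | m + 1, p => by
      simp only [mom, T]
      have hsum : ∀ F : V × V → ℝ, ∑ e' ∈ imgE ψ E, F e' = ∑ e ∈ E, F (ψ e.1, ψ e.2) := by
        intro F
        apply Finset.sum_image
        intro e _ f _ h
        simp only [Prod.mk.injEq, EmbeddingLike.apply_eq_iff_eq] at h
        exact Prod.ext h.1 h.2
      rw [hsum]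
      apply Finset.sum_congr rfl
      intro e _
      rw [mom_imgE ψ E c m, mom_imgE ψ E c m]
      have h1 : (p - dip (ψ e.1, ψ e.2)) ∘ ψ = p ∘ ψ - dip e := by
        rw [← dip_comp ψ e]; rfl
      have h2 : (p + dip (ψ e.1, ψ e.2)) ∘ ψ = p ∘ ψ + dip e := by
        rw [← dip_comp ψ e]; rfl
      rw [h1, h2]

lemma corr_imgE (ψ : Equiv.Perm V) (E : Finset (V × V)) (c : ℝ) (x y : V) :
    corr (imgE ψ E) (fun _ => c) (ψ x) (ψ y) = corr E (fun _ => c) x y := by
  unfold corr Z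
  simp only [mom_imgE]
  have h1 : (chg (ψ x) - chg (ψ y)) ∘ ψ = chg x - chg y := by
    have h3 := chg_comp ψ x
    have h4 := chg_comp ψ y
    rw [← h3, ← h4]; rfl
  have h2 : (0 : V → ℤ) ∘ ψ = 0 := rfl
  rw [h1, h2]

/-- Positivity of the two point function across an edge. -/
lemma Z_edge_pos {E : Finset (V × V)} {c : ℝ} (hc : 0 < c) {e : V × V} (he : e ∈ E) :
    0 < Z E (fun _ => c) (dip e) := by
  have hw : ∀ f : V × V, 0 ≤ (fun _ => c : _ → ℝ) f := fun _ => hc.le
  have h1 := le_hasSum (hasSum_Z E hw (dip e)) 1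
    (fun m _ => div_nonneg (mom_nonneg E hw m _) (by positivity))
  have h2 : 0 < mom E (fun _ => c) 1 (dip e) := by
    have h3 : c / 2 ≤ mom E (fun _ => c) 1 (dip e) := by
      show c / 2 ≤ T E (fun _ => c) (mom E (fun _ => c) 0) (dip e)
      have h4 := Finset.single_le_sum
        (f := fun f => (c / 2) * (mom E (fun _ => c) 0 (dip e - dip f)
          + mom E (fun _ => c) 0 (dip e + dip f)))
        (fun f _ => mul_nonneg (by positivity)
          (add_nonneg (mom_nonneg E hw 0 _) (mom_nonneg E hw 0 _))) he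
      refine le_trans ?_ h4
      have h5 : mom E (fun _ => c) 0 (dip e - dip e) = 1 := by
        rw [sub_self]; exact delta0_zero
      have h6 := mom_nonneg E hw 0 (dip e + dip e)
      rw [h5]
      nlinarith
    linarith [half_pos hc]
  have h7 : 0 < mom E (fun _ => c) 1 (dip e) / ((Nat.factorial 1 : ℕ) : ℝ) := by
    simpa using h2
  exact lt_of_lt_of_le h7 h1

end Restrict

/-! ### Basic properties of `cf` -/

section CF

variable {b b' : ℝ} {R R' : ℕ} {x y z : ℤ × ℤ}

lemma half_nonneg' (hb : 0 ≤ b) : ∀ e : (ℤ × ℤ) × (ℤ × ℤ), 0 ≤ (fun _ => b / 2 : _ → ℝ) e :=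
  fun _ => by positivity

lemma cf_nonneg (hb : 0 ≤ b) (R : ℕ) (x y : ℤ × ℤ) : 0 ≤ cf R b x y :=
  corr_nonneg (half_nonneg' hb) x y

lemma cf_le_one (hb : 0 ≤ b) (R : ℕ) (x y : ℤ × ℤ) : cf R b x y ≤ 1 :=
  corr_le_one (half_nonneg' hb) x y

lemma cf_self (hb : 0 ≤ b) (R : ℕ) (x : ℤ × ℤ) : cf R b x x = 1 :=
  corr_self (half_nonneg' hb) x

lemma cf_symm (R : ℕ) (b : ℝ) (x y : ℤ × ℤ) : cf R b x y = cf R b y x := corr_symm x y

lemma cf_triple (hb : 0 ≤ b) (R : ℕ) (x y z : ℤ × ℤ) :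
    cf R b x y * cf R b y z ≤ cf R b x z := corr_triple (half_nonneg' hb) x y z

lemma cf_mono_R (hb : 0 ≤ b) (h : R ≤ R') (x y : ℤ × ℤ) : cf R b x y ≤ cf R' b x y :=
  corr_subset (D_mono h) (by positivity) x y

lemma cf_mono_b (hb : 0 ≤ b) (h : b ≤ b') (R : ℕ) (x y : ℤ × ℤ) : cf R b x y ≤ cf R b' x y := by
  have hΔ : ∀ e : (ℤ × ℤ) × (ℤ × ℤ), 0 ≤ (fun _ => (b' - b) / 2 : _ → ℝ) e := by
    intro e
    have : 0 ≤ b' - b := by linarith
    positivity
  have h1 := corr_mono (E := D R) (half_nonneg' hb) hΔ x y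
  have h2 : (fun e : (ℤ × ℤ) × (ℤ × ℤ) => (fun _ => b / 2 : _ → ℝ) e
      + (fun _ => (b' - b) / 2 : _ → ℝ) e) = fun _ => b' / 2 := by
    funext e
    simp only
    ring
  rw [h2] at h1
  exact h1

lemma cf_eq_zero (hy : y ∉ box R) (hxy : x ≠ y) (b : ℝ) : cf R b x y = 0 := by
  apply corr_untouched
  · intro e he
    rw [mem_D] at he
    exact ⟨fun h => hy (h ▸ he.1), fun h => hy (h ▸ he.2.1)⟩
  · exact hxy

lemma cf_adj_pos (hb : 0 < b) (hA : Adj x y) (hx : x ∈ box R) (hy : y ∈ box R) :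
    0 < cf R b x y := by
  have he : (x, y) ∈ D R := by
    rw [mem_D]; exact ⟨hx, hy, hA⟩
  have h1 := Z_edge_pos (c := b / 2) (by positivity) he
  exact div_pos h1 (Z_zero_pos _ (half_nonneg' hb.le))

end CF

end Vale.Agent.Lib.P159
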