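import Vale.Agent.Lib.P159.Infinite

/-!
# Summability, the mean field step and the decay from summability
-/

namespace Vale.Agent.Lib.P159

open Filter Set Topology

set_option linter.unusedSectionVars false

variable {b b' ε X : ℝ}

/-- Uniform bound on the finite sums of the two point function (susceptibility at most `X`). -/
def SumBdd (b X : ℝ) : Prop := ∀ F : Finset (ℤ × ℤ), ∑ z ∈ F, cInf b 0 z ≤ X

lemma exists_box_superset (F : Finset (ℤ × ℤ)) : ∃ N : ℕ, F ⊆ box N := by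
  refine ⟨F.sup (fun z => z.1.natAbs + z.2.natAbs), ?_⟩
  intro z hz
  have h : z.1.natAbs + z.2.natAbs ≤ F.sup (fun z => z.1.natAbs + z.2.natAbs) :=
    Finset.le_sup (f := fun z : ℤ × ℤ => z.1.natAbs + z.2.natAbs) hz
  rw [mem_box]
  omega

/-! ### The geometric sum -/

lemma sum_Icc_pow_le {q : ℝ} (hq1 : q < 1) (N : ℕ) :
    ∑ k ∈ Finset.Icc (-(N : ℤ)) (N : ℤ), q ^ k.natAbs ≤ (1 + q - 2 * q ^ (N + 1)) / (1 - q) := by
  have hpos : 0 < 1 - q := by linarith
  induction N with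
  | zero =>
      simp
      rw [le_div_iff₀ hpos]
      nlinarith
  | succ N ih =>
      have hset : Finset.Icc (-((N + 1 : ℕ) : ℤ)) ((N + 1 : ℕ) : ℤ)
          = insert (-((N + 1 : ℕ) : ℤ)) (insert ((N + 1 : ℕ) : ℤ)
              (Finset.Icc (-(N : ℤ)) (N : ℤ))) := by
        ext k
        simp only [Finset.mem_Icc, Finset.mem_insert]
        push_cast
        omega
      rw [hset, Finset.sum_insert, Finset.sum_insert]
      · have h1 : (-((N + 1 : ℕ) : ℤ)).natAbs = N + 1 := by omega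
        have h2 : (((N + 1 : ℕ) : ℤ)).natAbs = N + 1 := by omega
        rw [h1, h2]
        have h3 : (1 + q - 2 * q ^ (N + 1 + 1)) / (1 - q)
            = (1 + q - 2 * q ^ (N + 1)) / (1 - q) + 2 * q ^ (N + 1) := by
          field_simp
          ring
        rw [h3]
        linarith
      · simp only [Finset.mem_Icc]
        push_cast
        omega
      · simp only [Finset.mem_insert, Finset.mem_Icc]
        push_cast
        omega

lemma sum_box_pow_le {q : ℝ} (hq0 : 0 ≤ q) (hq1 : q < 1) (N : ℕ) :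
    ∑ z ∈ box N, q ^ z.1.natAbs * q ^ z.2.natAbs ≤ ((1 + q) / (1 - q)) ^ 2 := by
  have hpos : 0 < 1 - q := by linarith
  unfold box
  rw [Finset.sum_product]
  show ∑ x ∈ Finset.Icc (-(N : ℤ)) (N : ℤ), ∑ y ∈ Finset.Icc (-(N : ℤ)) (N : ℤ),
    q ^ x.natAbs * q ^ y.natAbs ≤ _
  rw [← Finset.sum_mul_sum, sq]
  have h1 := sum_Icc_pow_le hq1 N
  have h2 : (1 + q - 2 * q ^ (N + 1)) / (1 - q) ≤ (1 + q) / (1 - q) := by
    apply div_le_div_of_nonneg_right _ hpos.le
    have : 0 ≤ q ^ (N + 1) := pow_nonneg hq0 _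
    linarith
  have h3 : 0 ≤ ∑ k ∈ Finset.Icc (-(N : ℤ)) (N : ℤ), q ^ k.natAbs :=
    Finset.sum_nonneg (fun k _ => pow_nonneg hq0 _)
  exact mul_self_le_mul_self h3 (h1.trans h2)

/-- A positive mass gives a bound on the susceptibility. -/
theorem sumBdd_of_mass (hb : 0 < b) (hm : 0 < mass b) : SumBdd b ((1 + 4 / mass b) ^ 2) := by
  intro F
  obtain ⟨N, hN⟩ := exists_box_superset F
  set m := mass b with hmdef
  set q := Real.exp (-(m / 2)) with hq
  have hq0 : 0 ≤ q := (Real.exp_pos _).le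
  have hq1 : q < 1 := by
    rw [hq, Real.exp_lt_one_iff]
    linarith
  have h1 : ∑ z ∈ F, cInf b 0 z ≤ ∑ z ∈ box N, cInf b 0 z :=
    Finset.sum_le_sum_of_subset_of_nonneg hN (fun z _ _ => cInf_nonneg hb.le 0 z)
  have h2 : ∑ z ∈ box N, cInf b 0 z ≤ ∑ z ∈ box N, q ^ z.1.natAbs * q ^ z.2.natAbs := by
    apply Finset.sum_le_sum
    intro z _
    exact cInf_le_pow hb z.1 z.2
  have h3 := sum_box_pow_le hq0 hq1 N
  have h4 : (1 + q) / (1 - q) ≤ 1 + 4 / m := by
    have hpos : 0 < 1 - q := by linarith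
    -- `1 - q ≥ m q / 2`, since `exp t ≥ 1 + t`
    have h5 : m / 2 * q ≤ 1 - q := by
      have h6 := Real.add_one_le_exp (m / 2)
      have h7 : Real.exp (m / 2) * q = 1 := by
        rw [hq, ← Real.exp_add]; simp
      nlinarith
    have h8 : (1 + q) / (1 - q) = 1 + 2 * q / (1 - q) := by
      field_simp
      ring
    rw [h8]
    have h9 : 2 * q / (1 - q) ≤ 4 / m := by
      rw [div_le_div_iff₀ hpos hm]
      nlinarith
    linarith
  have h10 : 0 ≤ (1 + q) / (1 - q) := by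
    apply div_nonneg <;> linarith
  calc ∑ z ∈ F, cInf b 0 z ≤ ((1 + q) / (1 - q)) ^ 2 := h1.trans (h2.trans h3)
    _ ≤ (1 + 4 / m) ^ 2 := pow_le_pow_left₀ h10 h4 2

/-! ### Degrees -/

lemma adj_symm {x y : ℤ × ℤ} (h : Adj x y) : Adj y x := by
  unfold Adj at h ⊢
  rw [abs_sub_comm y.1, abs_sub_comm y.2]
  exact h

/-- The four neighbours of a site. -/
def nbrs (u : ℤ × ℤ) : Finset (ℤ × ℤ) :=
  {(u.1 + 1, u.2), (u.1 - 1, u.2), (u.1, u.2 + 1), (u.1, u.2 - 1)}

lemma card_nbrs_le (u : ℤ × ℤ) : (nbrs u).card ≤ 4 := Finset.card_le_four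

lemma adj_coord {u v : ℤ × ℤ} (h : Adj u v) :
    (v.1 = u.1 + 1 ∧ v.2 = u.2) ∨ (v.1 = u.1 - 1 ∧ v.2 = u.2) ∨ (v.1 = u.1 ∧ v.2 = u.2 + 1)
      ∨ (v.1 = u.1 ∧ v.2 = u.2 - 1) := by
  unfold Adj at h
  rcases abs_cases (u.1 - v.1) with ⟨h1, _⟩ | ⟨h1, _⟩ <;>
    rcases abs_cases (u.2 - v.2) with ⟨h2, _⟩ | ⟨h2, _⟩ <;> omega

lemma mem_nbrs_of_adj {u v : ℤ × ℤ} (h : Adj u v) : v ∈ nbrs u := by
  simp only [nbrs, Finset.mem_insert, Finset.mem_singleton]
  rcases adj_coord h with ⟨h1, h2⟩ | ⟨h1, h2⟩ | ⟨h1, h2⟩ | ⟨h1, h2⟩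
  · left; exact Prod.ext h1 h2
  · right; left; exact Prod.ext h1 h2
  · right; right; left; exact Prod.ext h1 h2
  · right; right; right; exact Prod.ext h1 h2

/-- Sum over edges of a function of the first endpoint. -/
lemma sum_fst_le (P : Finset ((ℤ × ℤ) × (ℤ × ℤ))) (hP : ∀ e ∈ P, Adj e.1 e.2)
    (U : Finset (ℤ × ℤ)) (hU : ∀ e ∈ P, e.1 ∈ U) (g : ℤ × ℤ → ℝ) (hg : ∀ u, 0 ≤ g u) :
    ∑ e ∈ P, g e.1 ≤ 4 * ∑ u ∈ U, g u := by
  rw [← Finset.sum_fiberwise_of_maps_to hU, Finset.mul_sum]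
  apply Finset.sum_le_sum
  intro u _
  have h1 : ∑ e ∈ P.filter (fun e => e.1 = u), g e.1
      = ((P.filter (fun e => e.1 = u)).card : ℝ) * g u := by
    rw [← nsmul_eq_mul]
    rw [← Finset.sum_const]
    apply Finset.sum_congr rfl
    intro e he
    rw [(Finset.mem_filter.mp he).2]
  rw [h1]
  have h2 : (P.filter (fun e => e.1 = u)).card ≤ (nbrs u).card := by
    apply Finset.card_le_card_of_injOn (fun e => e.2)
    · intro e he
      have he' := Finset.mem_filter.mp he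
      have := hP e he'.1
      rw [he'.2] at this
      exact mem_nbrs_of_adj this
    · intro e he f hf h
      have he' := Finset.mem_filter.mp he
      have hf' := Finset.mem_filter.mp hf
      exact Prod.ext (he'.2.trans hf'.2.symm) h
  have h3 : ((P.filter (fun e => e.1 = u)).card : ℝ) ≤ 4 := by
    have := h2.trans (card_nbrs_le u)
    exact_mod_cast this
  exact mul_le_mul_of_nonneg_right h3 (hg u)

/-- Sum over edges of a function of the second endpoint. -/
lemma sum_snd_le (P : Finset ((ℤ × ℤ) × (ℤ × ℤ))) (hP : ∀ e ∈ P, Adj e.1 e.2)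
    (U : Finset (ℤ × ℤ)) (hU : ∀ e ∈ P, e.2 ∈ U) (g : ℤ × ℤ → ℝ) (hg : ∀ u, 0 ≤ g u) :
    ∑ e ∈ P, g e.2 ≤ 4 * ∑ u ∈ U, g u := by
  have h1 : ∑ e ∈ P, g e.2 = ∑ e ∈ P.image Prod.swap, g e.1 := by
    rw [Finset.sum_image]
    · rfl
    · intro e _ f _ h
      exact Prod.swap_injective h
  rw [h1]
  apply sum_fst_le
  · intro e he
    obtain ⟨f, hf, rfl⟩ := Finset.mem_image.mp he
    exact adj_symm (hP f hf)
  · intro e he
    obtain ⟨f, hf, rfl⟩ := Finset.mem_image.mp he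
    exact hU f hf
  · exact hg

/-- Finite sums of the two point function from any source. -/
lemma sum_from_le (hb : 0 ≤ b) (hX : SumBdd b X) (s : ℤ × ℤ) (A : Finset (ℤ × ℤ)) :
    ∑ x ∈ A, cInf b s x ≤ X := by
  have h1 : ∑ x ∈ A, cInf b s x = ∑ z ∈ A.image (fun x => x - s), cInf b 0 z := by
    rw [Finset.sum_image]
    · apply Finset.sum_congr rfl
      intro x _
      exact cInf_eq_zero_base hb s x
    · intro x _ y _ h
      exact sub_left_injective h
  rw [h1]
  exact hX _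

/-! ### The mean field step -/

/-- One step of the master inequality at fixed volume, comparing `b` and `b + ε`. -/
lemma cf_master (hb : 0 ≤ b) (hε : 0 ≤ ε) (R : ℕ) (s x : ℤ × ℤ) :
    cf R (b + ε) s x ≤ cf R b s x + ∑ e ∈ D R, (ε / 4) *
      (cf R b s e.1 * cf R (b + ε) e.2 x + cf R b s e.2 * cf R (b + ε) e.1 x) := by
  have hΔ : ∀ e : (ℤ × ℤ) × (ℤ × ℤ), 0 ≤ (fun _ => ε / 2 : _ → ℝ) e := fun _ => by positivity
  have h := corr_master (E := D R) (half_nonneg' hb) hΔ s x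
  have h2 : (fun e : (ℤ × ℤ) × (ℤ × ℤ) => (fun _ => b / 2 : _ → ℝ) e
      + (fun _ => ε / 2 : _ → ℝ) e) = fun _ => (b + ε) / 2 := by
    funext e
    simp only
    ring
  rw [h2] at h
  refine h.trans (le_of_eq ?_)
  unfold cf
  congr 1
  apply Finset.sum_congr rfl
  intro e _
  ring

/-- Mean field step: a bound on the susceptibility persists for slightly larger `b`. -/
theorem sumBdd_step (hb : 0 < b) (hε : 0 < ε) (hX : SumBdd b X) (h : 2 * ε * X < 1) :
    SumBdd (b + ε) (X / (1 - 2 * ε * X)) := by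
  have hbε : 0 < b + ε := by linarith
  have hpos : 0 < 1 - 2 * ε * X := by linarith
  have hX0 : 0 ≤ X := by simpa using hX ∅
  -- bound at fixed volume
  have key : ∀ R : ℕ, ∀ s ∈ box R, ∑ x ∈ box R, cf R (b + ε) s x ≤ X / (1 - 2 * ε * X) := by
    intro R
    set Y : ℤ × ℤ → ℝ := fun y => ∑ x ∈ box R, cf R (b + ε) y x with hY
    obtain ⟨y₀, hy₀, hmax⟩ := Finset.exists_max_image (box R) Y ⟨0, zero_mem_box R⟩
    have hY0 : ∀ y, 0 ≤ Y y := fun y => Finset.sum_nonneg (fun x _ => cf_nonneg hbε.le R y x)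
    have hstep : ∀ s ∈ box R, Y s ≤ X + 2 * ε * X * Y y₀ := by
      intro s _
      have h1 : Y s ≤ ∑ x ∈ box R, (cf R b s x + ∑ e ∈ D R, (ε / 4) *
          (cf R b s e.1 * cf R (b + ε) e.2 x + cf R b s e.2 * cf R (b + ε) e.1 x)) :=
        Finset.sum_le_sum (fun x _ => cf_master hb.le hε.le R s x)
      rw [Finset.sum_add_distrib, Finset.sum_comm] at h1
      have h2 : ∑ x ∈ box R, cf R b s x ≤ X :=
        (Finset.sum_le_sum (fun x _ => cf_le_cInf hb.le R s x)).trans
          (sum_from_le hb.le hX s _)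
      have h3 : ∑ e ∈ D R, ∑ x ∈ box R, (ε / 4) *
            (cf R b s e.1 * cf R (b + ε) e.2 x + cf R b s e.2 * cf R (b + ε) e.1 x)
          ≤ ∑ e ∈ D R, (ε / 4) * (Y y₀ * (cInf b s e.1 + cInf b s e.2)) := by
        apply Finset.sum_le_sum
        intro e he
        rw [mem_D] at he
        rw [← Finset.mul_sum]
        apply mul_le_mul_of_nonneg_left _ (by positivity)
        rw [Finset.sum_add_distrib, ← Finset.mul_sum, ← Finset.mul_sum]
        have h4 := hmax e.2 he.2.1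
        have h5 := hmax e.1 he.1
        have h6 := cf_le_cInf hb.le R s e.1
        have h7 := cf_le_cInf hb.le R s e.2
        have h8 := cf_nonneg hb.le R s e.1
        have h9 := cf_nonneg hb.le R s e.2
        have h10 := hY0 e.1
        have h11 := hY0 e.2
        have h12 := hY0 y₀
        calc cf R b s e.1 * Y e.2 + cf R b s e.2 * Y e.1
            ≤ cInf b s e.1 * Y y₀ + cInf b s e.2 * Y y₀ := by
              apply add_le_add
              · exact mul_le_mul h6 h4 h11 (h8.trans h6)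
              · exact mul_le_mul h7 h5 h10 (h9.trans h7)
          _ = _ := by ring
      have h4 : ∑ e ∈ D R, cInf b s e.1 ≤ 4 * X := by
        have := sum_fst_le (D R) (fun e he => (mem_D.mp he).2.2) (box R)
          (fun e he => (mem_D.mp he).1) (fun u => cInf b s u) (fun u => cInf_nonneg hb.le s u)
        have h5 := sum_from_le hb.le hX s (box R)
        linarith
      have h5 : ∑ e ∈ D R, cInf b s e.2 ≤ 4 * X := by
        have := sum_snd_le (D R) (fun e he => (mem_D.mp he).2.2) (box R)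
          (fun e he => (mem_D.mp he).2.1) (fun u => cInf b s u) (fun u => cInf_nonneg hb.le s u)
        have h5 := sum_from_le hb.le hX s (box R)
        linarith
      have h6 : ∑ e ∈ D R, (ε / 4) * (Y y₀ * (cInf b s e.1 + cInf b s e.2))
          = (ε / 4) * Y y₀ * (∑ e ∈ D R, cInf b s e.1 + ∑ e ∈ D R, cInf b s e.2) := by
        rw [← Finset.sum_add_distrib, Finset.mul_sum]
        apply Finset.sum_congr rfl
        intro e _
        ring
      have h7 : (ε / 4) * Y y₀ * (∑ e ∈ D R, cInf b s e.1 + ∑ e ∈ D R, cInf b s e.2)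
          ≤ (ε / 4) * Y y₀ * (4 * X + 4 * X) :=
        mul_le_mul_of_nonneg_left (by linarith) (mul_nonneg (by positivity) (hY0 y₀))
      have h8 : (ε / 4) * Y y₀ * (4 * X + 4 * X) = 2 * ε * X * Y y₀ := by ring
      linarith
    have hy := hstep y₀ hy₀
    have hy2 : Y y₀ * (1 - 2 * ε * X) ≤ X := by nlinarith
    have hy3 : Y y₀ ≤ X / (1 - 2 * ε * X) := (le_div_iff₀ hpos).mpr hy2
    intro s hs
    exact (hmax s hs).trans hy3
  -- pass to the limit
  intro F
  obtain ⟨N, hN⟩ := exists_box_superset F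
  have hlim : Tendsto (fun R : ℕ => ∑ z ∈ F, cf R (b + ε) 0 z) atTop
      (𝓝 (∑ z ∈ F, cInf (b + ε) 0 z)) :=
    tendsto_finsetSum _ (fun z _ => tendsto_cf hbε.le 0 z)
  apply le_of_tendsto hlim
  filter_upwards [eventually_ge_atTop N] with R hR
  have h1 : ∑ z ∈ F, cf R (b + ε) 0 z ≤ ∑ x ∈ box R, cf R (b + ε) 0 x :=
    Finset.sum_le_sum_of_subset_of_nonneg (hN.trans (box_mono hR))
      (fun z _ _ => cf_nonneg hbε.le R 0 z)
  exact h1.trans (key R 0 (zero_mem_box R))

end Vale.Agent.Lib.P159
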