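import Mathlib

/-!
# Orientation counts on lists of edges

The combinatorial core for the XY correlation inequalities: for a list `L` of edges over a
vertex type `V` and a charge configuration `n : V → ℤ`, the number `O L n` counts the orientations
of the edges of `L` whose net charge equals `n`.
-/

namespace Vale.Agent.Lib.P159

variable {V : Type*} [DecidableEq V]

/-- The unit charge at `x`. -/
def chg (x : V) : V → ℤ := fun v => if v = x then 1 else 0

/-- The dipole of an edge. -/
def dip (e : V × V) : V → ℤ := chg e.1 - chg e.2

open Classical in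
/-- Orientation count (as a real number). -/
noncomputable def O : List (V × V) → (V → ℤ) → ℝ
  | [], n => if n = 0 then 1 else 0
  | c :: L, n => O L (n - dip c) + O L (n + dip c)

@[simp] lemma O_cons (c : V × V) (L : List (V × V)) (n : V → ℤ) :
    O (c :: L) n = O L (n - dip c) + O L (n + dip c) := rfl

lemma O_nonneg : ∀ (L : List (V × V)) (n : V → ℤ), 0 ≤ O L n
  | [], n => by
      simp only [O]; split_ifs <;> norm_num
  | c :: L, n => by
      rw [O_cons]; exact add_nonneg (O_nonneg L _) (O_nonneg L _)

lemma O_neg : ∀ (L : List (V × V)) (n : V → ℤ), O L (-n) = O L n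
  | [], n => by
      by_cases h : n = 0
      · simp [O, h]
      · have h' : -n ≠ 0 := neg_ne_zero.mpr h
        simp only [O, if_neg h, if_neg h']
  | c :: L, n => by
      rw [O_cons, O_cons]
      have h1 : -n - dip c = -(n + dip c) := by abel
      have h2 : -n + dip c = -(n - dip c) := by abel
      rw [h1, h2, O_neg L, O_neg L, add_comm]

lemma O_le_pow : ∀ (L : List (V × V)) (n : V → ℤ), O L n ≤ 2 ^ L.length
  | [], n => by
      simp only [O]; split_ifs <;> norm_num
  | c :: L, n => by
      rw [O_cons, List.length_cons, pow_succ]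
      have h1 := O_le_pow L (n - dip c)
      have h2 := O_le_pow L (n + dip c)
      linarith

lemma O_perm {L L' : List (V × V)} (h : L.Perm L') : ∀ n, O L n = O L' n := by
  induction h with
  | nil => intro n; rfl
  | cons c _ ih => intro n; simp only [O_cons, ih]
  | swap a b L =>
      intro n
      simp only [O_cons]
      have h1 : n - dip b - dip a = n - dip a - dip b := by abel
      have h2 : n - dip b + dip a = n + dip a - dip b := by abel
      have h3 : n + dip b - dip a = n - dip a + dip b := by abel
      have h4 : n + dip b + dip a = n + dip a + dip b := by abel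
      rw [h1, h2, h3, h4]; ring
  | trans _ _ ih1 ih2 => intro n; rw [ih1, ih2]

/-- Sum over all ways of removing one element from a list. -/
noncomputable def rsum {α : Type*} : List α → (α → List α → ℝ) → ℝ
  | [], _ => 0
  | c :: L, G => G c L + rsum L (fun e M => G e (c :: M))

lemma rsum_le {α : Type*} : ∀ (L : List α) (G G' : α → List α → ℝ),
    (∀ e M, (e :: M).Perm L → G e M ≤ G' e M) → rsum L G ≤ rsum L G'
  | [], _, _, _ => le_refl _
  | c :: L, G, G', h => by
      simp only [rsum]
      apply add_le_add (h c L (List.Perm.refl _))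
      apply rsum_le L
      intro e M hp
      apply h
      exact (List.Perm.swap c e M).trans (hp.cons c)

lemma rsum_congr {α : Type*} : ∀ (L : List α) (G G' : α → List α → ℝ),
    (∀ e M, G e M = G' e M) → rsum L G = rsum L G' := by
  intro L G G' h
  have : G = G' := by funext e M; exact h e M
  rw [this]

lemma rsum_add {α : Type*} : ∀ (L : List α) (G G' : α → List α → ℝ),
    rsum L (fun e M => G e M + G' e M) = rsum L G + rsum L G'
  | [], _, _ => by simp [rsum]
  | c :: L, G, G' => by
      simp only [rsum]
      rw [rsum_add L]; ring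

lemma rsum_const_mul {α : Type*} : ∀ (L : List α) (a : ℝ) (G : α → List α → ℝ),
    rsum L (fun e M => a * G e M) = a * rsum L G
  | [], _, _ => by simp [rsum]
  | c :: L, a, G => by
      simp only [rsum]
      rw [rsum_const_mul L]; ring

lemma rsum_finset_sum {α β : Type*} (L : List α) (U : Finset β) (F : β → α → List α → ℝ) :
    rsum L (fun e M => ∑ u ∈ U, F u e M) = ∑ u ∈ U, rsum L (F u) := by
  classical
  induction U using Finset.induction_on with
  | empty =>
      simp only [Finset.sum_empty]
      have : ∀ (L : List α), rsum L (fun _ _ => (0:ℝ)) = 0 := by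
        intro L
        induction L with
        | nil => rfl
        | cons c L ih => simp only [rsum]; rw [ih]; ring
      exact this L
  | insert a s ha ih =>
      simp only [Finset.sum_insert ha]
      rw [rsum_add, ih]

/-- Incidence of the vertex `s` with the edge `e`. -/
def inc (s : V) (e : V × V) : ℤ := dip e s

lemma inc_cases (s : V) (e : V × V) : inc s e = 0 ∨ inc s e = 1 ∨ inc s e = -1 := by
  simp only [inc, dip, chg, Pi.sub_apply]
  split_ifs <;> simp

/-- Degree of the vertex `s` in the list. -/
noncomputable def deg (s : V) : List (V × V) → ℝ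
  | [] => 0
  | c :: L => ((inc s c : ℤ) : ℝ) ^ 2 + deg s L

lemma deg_nonneg (s : V) : ∀ L : List (V × V), 0 ≤ deg s L
  | [] => le_refl _
  | c :: L => by
      simp only [deg]
      exact add_nonneg (sq_nonneg _) (deg_nonneg s L)

/-- The summand of the counting identity. -/
noncomputable def Gc (s : V) (n : V → ℤ) (e : V × V) (M : List (V × V)) : ℝ :=
  ((inc s e : ℤ) : ℝ) ^ 2 * O M (n - inc s e • dip e)

lemma Gc_cons (s : V) (n : V → ℤ) (c e : V × V) (M : List (V × V)) :
    Gc s n e (c :: M) = Gc s (n - dip c) e M + Gc s (n + dip c) e M := by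
  simp only [Gc, O_cons]
  have h1 : n - inc s e • dip e - dip c = n - dip c - inc s e • dip e := by abel
  have h2 : n - inc s e • dip e + dip c = n + dip c - inc s e • dip e := by abel
  rw [h1, h2]; ring

/-- The counting identity. -/
lemma rsum_count (s : V) : ∀ (L : List (V × V)) (n : V → ℤ),
    2 * rsum L (Gc s n) = (deg s L + (n s : ℝ)) * O L n
  | [], n => by
      simp only [rsum, deg, O]
      split_ifs with h
      · simp [h]
      · simp
  | c :: L, n => by
      have hG : (fun e M => Gc s n e (c :: M))
          = fun e M => Gc s (n - dip c) e M + Gc s (n + dip c) e M := by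
        funext e M; exact Gc_cons s n c e M
      simp only [rsum, deg, O_cons]
      rw [hG, rsum_add, mul_add, mul_add, rsum_count s L (n - dip c), rsum_count s L (n + dip c)]
      have e1 : ((n - dip c) s : ℤ) = n s - inc s c := rfl
      have e2 : ((n + dip c) s : ℤ) = n s + inc s c := rfl
      rw [e1, e2]
      simp only [Gc]
      rcases inc_cases s c with h | h | h
      · rw [h]; push_cast; ring
      · rw [h]
        simp only [one_smul]
        push_cast; ring
      · rw [h]
        have : n - (-1 : ℤ) • dip c = n + dip c := by simp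
        rw [this]
        push_cast; ring

/-- If the incidence is nonzero, the edge gives an explicit other endpoint. -/
lemma inc_ne_zero_endpoint (s : V) (e : V × V) (h : inc s e ≠ 0) :
    ∃ y, (y = e.1 ∨ y = e.2) ∧ inc s e • dip e = chg s - chg y ∧ (s = e.1 ∨ s = e.2) := by
  rcases e with ⟨a, b⟩
  simp only [inc, dip, chg, Pi.sub_apply] at h
  by_cases h1 : s = a
  · by_cases h2 : s = b
    · exfalso; apply h; simp [h1, ← h2]
    · refine ⟨b, Or.inr rfl, ?_, Or.inl h1⟩
      have : inc s (a, b) = 1 := by
        simp [inc, dip, chg, h1]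
        intro h3; exact h2 (h1.trans h3)
      rw [this, one_smul, h1]; rfl
  · by_cases h2 : s = b
    · refine ⟨a, Or.inl rfl, ?_, Or.inr h2⟩
      have : inc s (a, b) = -1 := by
        simp [inc, dip, chg, h2]
        intro h3; exact h1 (h2.trans h3)
      rw [this, h2]
      funext v
      simp [dip, chg]
    · exfalso; apply h; simp [h1, h2]

/-- Coefficient `(δ_{su} - n u)⁺`. -/
noncomputable def cc (s : V) (n : V → ℤ) (u : V) : ℝ := max 0 (((chg s u - n u : ℤ)) : ℝ)

lemma cc_nonneg (s : V) (n : V → ℤ) (u : V) : 0 ≤ cc s n u := le_max_left _ _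

/-- The key flow inequality. -/
theorem O_star (U : Finset V) : ∀ (k : ℕ) (L : List (V × V)), L.length = k →
    (∀ e ∈ L, e.1 ∈ U ∧ e.2 ∈ U) → ∀ s ∈ U, ∀ n : V → ℤ,
    O L n ≤ ∑ u ∈ U, cc s n u * O L (n - (2:ℤ) • chg s + (2:ℤ) • chg u) := by
  intro k
  induction k using Nat.strong_induction_on with
  | _ k ih =>
  intro L hk hU s hs n
  by_cases hn : n s ≤ 0
  · -- the term `u = s` suffices
    have hterm : O L n ≤ cc s n s * O L (n - (2:ℤ) • chg s + (2:ℤ) • chg s) := by
      have h1 : n - (2:ℤ) • chg s + (2:ℤ) • chg s = n := by abel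
      rw [h1]
      have h2 : (1:ℝ) ≤ cc s n s := by
        have : ((1:ℤ):ℝ) ≤ ((chg s s - n s : ℤ) : ℝ) := by
          have : (1:ℤ) ≤ chg s s - n s := by
            simp only [chg, if_true]; omega
          exact_mod_cast this
        calc (1:ℝ) = ((1:ℤ):ℝ) := by norm_num
          _ ≤ _ := this
          _ ≤ cc s n s := le_max_right _ _
      have h3 := O_nonneg L n
      nlinarith
    refine hterm.trans ?_
    exact Finset.single_le_sum
      (f := fun u => cc s n u * O L (n - (2:ℤ) • chg s + (2:ℤ) • chg u))
      (fun u _ => mul_nonneg (cc_nonneg _ _ _) (O_nonneg _ _)) hs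
  · -- the recursion
    have hn1 : (1:ℝ) ≤ (n s : ℝ) := by
      have : (1:ℤ) ≤ n s := by omega
      exact_mod_cast this
    have hdeg := deg_nonneg s L
    set D : ℝ := deg s L + (n s : ℝ) with hD
    have hDpos : 0 < D := by linarith
    set q : V → V → ℤ := fun u => n - (2:ℤ) • chg s + (2:ℤ) • chg u with hq
    -- termwise bound
    have hterm : ∀ e M, (e :: M).Perm L →
        Gc s n e M ≤ ∑ u ∈ U, cc s n u * Gc s (-(q u)) e M := by
      intro e M hp
      by_cases hinc : inc s e = 0
      · have : ∀ n', Gc s n' e M = 0 := by intro n'; simp [Gc, hinc]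
        rw [this]
        apply le_of_eq
        symm
        apply Finset.sum_eq_zero
        intro u _
        rw [this]; ring
      · obtain ⟨y, hy, hdy, _⟩ := inc_ne_zero_endpoint s e hinc
        have heL : e ∈ L := hp.subset (by simp)
        have hyU : y ∈ U := by
          rcases hy with hy | hy
          · rw [hy]; exact (hU e heL).1
          · rw [hy]; exact (hU e heL).2
        have hML : M.length < k := by
          have := hp.length_eq
          simp only [List.length_cons] at this
          omega
        have hMU : ∀ f ∈ M, f.1 ∈ U ∧ f.2 ∈ U := by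
          intro f hf
          exact hU f (hp.subset (List.mem_cons_of_mem e hf))
        have hIH := ih _ hML M rfl hMU y hyU (n - chg s + chg y)
        -- coefficient unchanged
        have hcc : ∀ u, cc y (n - chg s + chg y) u = cc s n u := by
          intro u
          simp only [cc]
          congr 2
          simp only [Pi.add_apply, Pi.sub_apply]
          ring
        have hcl : ∀ u, n - chg s + chg y - (2:ℤ) • chg y + (2:ℤ) • chg u
            = -(-(q u) - inc s e • dip e) := by
          intro u
          rw [hdy]
          simp only [hq]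
          abel
        have hO : O M (n - inc s e • dip e) ≤ ∑ u ∈ U, cc s n u * O M (-(q u) - inc s e • dip e) := by
          have h1 : n - inc s e • dip e = n - chg s + chg y := by rw [hdy]; abel
          rw [h1]
          refine hIH.trans (le_of_eq ?_)
          apply Finset.sum_congr rfl
          intro u _
          rw [hcc, hcl, O_neg]
        simp only [Gc]
        rw [show ∑ u ∈ U, cc s n u * (((inc s e : ℤ) : ℝ) ^ 2 * O M (-q u - inc s e • dip e))
            = ((inc s e : ℤ) : ℝ) ^ 2 * ∑ u ∈ U, cc s n u * O M (-q u - inc s e • dip e) by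
          rw [Finset.mul_sum]
          apply Finset.sum_congr rfl
          intro u _
          ring]
        exact mul_le_mul_of_nonneg_left hO (sq_nonneg _)
    have hsum : rsum L (Gc s n) ≤ rsum L (fun e M => ∑ u ∈ U, cc s n u * Gc s (-(q u)) e M) :=
      rsum_le L _ _ hterm
    rw [rsum_finset_sum] at hsum
    have hcount := rsum_count s L n
    -- each term
    have hu : ∀ u ∈ U, 2 * rsum L (fun e M => cc s n u * Gc s (-(q u)) e M)
        ≤ D * (cc s n u * O L (q u)) := by
      intro u _
      rw [rsum_const_mul]
      have h1 := rsum_count s L (-(q u))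
      rw [O_neg] at h1
      have h2 : ((-(q u)) s : ℤ) = -(n s) + 2 - 2 * chg u s := by
        simp only [hq, Pi.neg_apply, Pi.add_apply, Pi.sub_apply, Pi.smul_apply, chg, if_true,
          smul_eq_mul]
        ring
      have h3 : (((-(q u)) s : ℤ) : ℝ) ≤ -(n s : ℝ) + 2 := by
        rw [h2]
        have : (0:ℤ) ≤ chg u s := by
          simp only [chg]; split_ifs <;> norm_num
        have h4 : ((0:ℤ):ℝ) ≤ ((chg u s : ℤ) : ℝ) := by exact_mod_cast this
        push_cast
        push_cast at h4
        linarith
      have h5 : deg s L + (((-(q u)) s : ℤ) : ℝ) ≤ D := by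
        rw [hD]; linarith
      have h6 : 0 ≤ O L (q u) := O_nonneg _ _
      have h7 := cc_nonneg s n u
      calc 2 * (cc s n u * rsum L (Gc s (-(q u))))
          = cc s n u * (2 * rsum L (Gc s (-(q u)))) := by ring
        _ = cc s n u * ((deg s L + (((-(q u)) s : ℤ) : ℝ)) * O L (q u)) := by rw [h1]
        _ ≤ cc s n u * (D * O L (q u)) := by
            apply mul_le_mul_of_nonneg_left _ h7
            exact mul_le_mul_of_nonneg_right h5 h6
        _ = D * (cc s n u * O L (q u)) := by ring
    have hfinal : D * O L n ≤ D * ∑ u ∈ U, cc s n u * O L (q u) := by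
      rw [hD, ← hcount, ← hD]
      calc 2 * rsum L (Gc s n)
          ≤ 2 * ∑ u ∈ U, rsum L (fun e M => cc s n u * Gc s (-(q u)) e M) := by linarith
        _ = ∑ u ∈ U, 2 * rsum L (fun e M => cc s n u * Gc s (-(q u)) e M) := by
            rw [Finset.mul_sum]
        _ ≤ ∑ u ∈ U, D * (cc s n u * O L (q u)) := Finset.sum_le_sum hu
        _ = D * ∑ u ∈ U, cc s n u * O L (q u) := by rw [Finset.mul_sum]
    exact le_of_mul_le_mul_left hfinal hDpos

/-- The triple inequality for orientation counts. -/
theorem O_triple : ∀ (k : ℕ) (L : List (V × V)), L.length = k → ∀ a b c : V,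
    O L (chg a + chg c - (2:ℤ) • chg b) ≤ O L (chg a - chg c) := by
  intro k
  induction k using Nat.strong_induction_on with
  | _ k ih =>
  intro L hk a b c
  by_cases hab : a = b
  · subst hab
    have : chg a + chg c - (2:ℤ) • chg a = -(chg a - chg c) := by abel
    rw [this, O_neg]
  · set n : V → ℤ := chg a + chg c - (2:ℤ) • chg b with hn
    set p : V → ℤ := chg a - chg c with hp
    have hcn := rsum_count a L n
    have hcp := rsum_count a L p
    have hle : rsum L (Gc a n) ≤ rsum L (Gc a p) := by
      apply rsum_le
      intro e M hperm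
      by_cases hinc : inc a e = 0
      · simp [Gc, hinc]
      · obtain ⟨y, _, hdy, _⟩ := inc_ne_zero_endpoint a e hinc
        have hML : M.length < k := by
          have := hperm.length_eq
          simp only [List.length_cons] at this
          omega
        have hIH := ih _ hML M rfl y b c
        simp only [Gc]
        apply mul_le_mul_of_nonneg_left _ (sq_nonneg _)
        have h1 : n - inc a e • dip e = chg y + chg c - (2:ℤ) • chg b := by
          rw [hdy, hn]; abel
        have h2 : p - inc a e • dip e = chg y - chg c := by
          rw [hdy, hp]; abel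
        rw [h1, h2]
        exact hIH
    have hna : (n a : ℤ) = 1 + chg c a := by
      simp only [hn, Pi.add_apply, Pi.sub_apply, Pi.smul_apply, chg, if_true, if_neg hab,
        smul_eq_mul]
      ring
    have hpa : (p a : ℤ) = 1 - chg c a := by
      simp only [hp, Pi.sub_apply, chg, if_true]
    have hc0 : (0:ℤ) ≤ chg c a := by
      simp only [chg]; split_ifs <;> norm_num
    have hna' : ((n a : ℤ) : ℝ) = 1 + ((chg c a : ℤ) : ℝ) := by rw [hna]; push_cast; ring
    have hpa' : ((p a : ℤ) : ℝ) = 1 - ((chg c a : ℤ) : ℝ) := by rw [hpa]; push_cast; ring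
    have hc0' : (0:ℝ) ≤ ((chg c a : ℤ) : ℝ) := by exact_mod_cast hc0
    have hdeg := deg_nonneg a L
    have hOn := O_nonneg L n
    have hOp := O_nonneg L p
    have hDn : 0 < deg a L + ((n a : ℤ) : ℝ) := by rw [hna']; linarith
    have hDle : deg a L + ((p a : ℤ) : ℝ) ≤ deg a L + ((n a : ℤ) : ℝ) := by
      rw [hna', hpa']; linarith
    have h1 : (deg a L + ((n a : ℤ) : ℝ)) * O L n ≤ (deg a L + ((n a : ℤ) : ℝ)) * O L p := by
      calc (deg a L + ((n a : ℤ) : ℝ)) * O L n = 2 * rsum L (Gc a n) := hcn.symm
        _ ≤ 2 * rsum L (Gc a p) := by linarith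
        _ = (deg a L + ((p a : ℤ) : ℝ)) * O L p := hcp
        _ ≤ _ := mul_le_mul_of_nonneg_right hDle hOp
    exact le_of_mul_le_mul_left h1 hDn

end Vale.Agent.Lib.P159
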