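import Vale.Agent.Lib.P159.Orient

/-!
# The high temperature series and the three basic inequalities
-/

namespace Vale.Agent.Lib.P159

open Finset

set_option linter.unusedSectionVars false

variable {V : Type*} [DecidableEq V]

/-- The one edge transfer operator. -/
noncomputable def T (E : Finset (V × V)) (w : V × V → ℝ) (g : (V → ℤ) → ℝ) (p : V → ℤ) : ℝ :=
  ∑ e ∈ E, (w e / 2) * (g (p - dip e) + g (p + dip e))

open Classical in
/-- The delta function at the zero charge. -/
noncomputable def delta0 (p : V → ℤ) : ℝ := if p = 0 then 1 else 0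

/-- Moments: the integrals of `cos (p·θ) H^m` when everything is normalised. -/
noncomputable def mom (E : Finset (V × V)) (w : V × V → ℝ) : ℕ → (V → ℤ) → ℝ
  | 0 => delta0
  | m + 1 => T E w (mom E w m)

/-- Total weight. -/
noncomputable def wt (E : Finset (V × V)) (w : V × V → ℝ) : ℝ := ∑ e ∈ E, w e

/-- Weighted sum over lists of edges of length `m`. -/
noncomputable def sumL (E : Finset (V × V)) (w : V × V → ℝ) : ℕ → (List (V × V) → ℝ) → ℝ
  | 0, f => f []
  | m + 1, f => ∑ e ∈ E, (w e / 2) * sumL E w m (fun L => f (e :: L))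

lemma delta0_nonneg (p : V → ℤ) : 0 ≤ delta0 p := by
  unfold delta0; split_ifs <;> norm_num

lemma delta0_le_one (p : V → ℤ) : delta0 p ≤ 1 := by
  unfold delta0; split_ifs <;> norm_num

lemma delta0_zero : delta0 (0 : V → ℤ) = 1 := by
  unfold delta0; simp

lemma delta0_of_ne {p : V → ℤ} (h : p ≠ 0) : delta0 p = 0 := by
  unfold delta0; simp [h]

lemma T_nonneg (E : Finset (V × V)) {w : V × V → ℝ} (hw : ∀ e, 0 ≤ w e) {g : (V → ℤ) → ℝ}
    (hg : ∀ p, 0 ≤ g p) (p : V → ℤ) : 0 ≤ T E w g p := by
  apply Finset.sum_nonneg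
  intro e _
  exact mul_nonneg (div_nonneg (hw e) (by norm_num)) (add_nonneg (hg _) (hg _))

lemma T_le (E : Finset (V × V)) {w : V × V → ℝ} (hw : ∀ e, 0 ≤ w e) {g : (V → ℤ) → ℝ} {M : ℝ}
    (hg : ∀ p, g p ≤ M) (p : V → ℤ) : T E w g p ≤ wt E w * M := by
  unfold T wt
  rw [Finset.sum_mul]
  apply Finset.sum_le_sum
  intro e _
  have h1 := hg (p - dip e)
  have h2 := hg (p + dip e)
  have h3 := hw e
  nlinarith

lemma wt_nonneg (E : Finset (V × V)) {w : V × V → ℝ} (hw : ∀ e, 0 ≤ w e) : 0 ≤ wt E w :=
  Finset.sum_nonneg (fun e _ => hw e)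

lemma mom_nonneg (E : Finset (V × V)) {w : V × V → ℝ} (hw : ∀ e, 0 ≤ w e) :
    ∀ (m : ℕ) (p : V → ℤ), 0 ≤ mom E w m p
  | 0, p => delta0_nonneg p
  | m + 1, p => T_nonneg E hw (mom_nonneg E hw m) p

lemma mom_le (E : Finset (V × V)) {w : V × V → ℝ} (hw : ∀ e, 0 ≤ w e) :
    ∀ (m : ℕ) (p : V → ℤ), mom E w m p ≤ wt E w ^ m
  | 0, p => by simpa [mom] using delta0_le_one p
  | m + 1, p => by
      rw [pow_succ']
      exact T_le E hw (mom_le E hw m) p

lemma mom_neg (E : Finset (V × V)) (w : V × V → ℝ) :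
    ∀ (m : ℕ) (p : V → ℤ), mom E w m (-p) = mom E w m p
  | 0, p => by
      by_cases h : p = 0
      · simp [mom, h]
      · have h' : -p ≠ 0 := neg_ne_zero.mpr h
        simp [mom, delta0_of_ne h, delta0_of_ne h']
  | m + 1, p => by
      simp only [mom, T]
      apply Finset.sum_congr rfl
      intro e _
      have h1 : -p - dip e = -(p + dip e) := by abel
      have h2 : -p + dip e = -(p - dip e) := by abel
      rw [h1, h2, mom_neg E w m, mom_neg E w m]
      ring

/-! ### Lists -/

lemma sumL_add (E : Finset (V × V)) (w : V × V → ℝ) :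
    ∀ (m : ℕ) (f g : List (V × V) → ℝ),
      sumL E w m (fun L => f L + g L) = sumL E w m f + sumL E w m g
  | 0, _, _ => rfl
  | m + 1, f, g => by
      simp only [sumL]
      rw [← Finset.sum_add_distrib]
      apply Finset.sum_congr rfl
      intro e _
      rw [sumL_add E w m]
      ring

lemma sumL_const_mul (E : Finset (V × V)) (w : V × V → ℝ) :
    ∀ (m : ℕ) (a : ℝ) (f : List (V × V) → ℝ),
      sumL E w m (fun L => a * f L) = a * sumL E w m f
  | 0, _, _ => rfl
  | m + 1, a, f => by
      simp only [sumL]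
      rw [Finset.mul_sum]
      apply Finset.sum_congr rfl
      intro e _
      rw [sumL_const_mul E w m]
      ring

lemma sumL_finset_sum {β : Type*} (E : Finset (V × V)) (w : V × V → ℝ) (m : ℕ) (U : Finset β)
    (F : β → List (V × V) → ℝ) :
    sumL E w m (fun L => ∑ u ∈ U, F u L) = ∑ u ∈ U, sumL E w m (F u) := by
  classical
  induction U using Finset.induction_on with
  | empty =>
      simp only [Finset.sum_empty]
      have := sumL_const_mul E w m 0 (fun _ => 0)
      simpa using this
  | insert a s ha ih =>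
      simp only [Finset.sum_insert ha]
      rw [sumL_add, ih]

lemma sumL_mono (E : Finset (V × V)) {w : V × V → ℝ} (hw : ∀ e, 0 ≤ w e) :
    ∀ (m : ℕ) (f g : List (V × V) → ℝ), (∀ L, (∀ e ∈ L, e ∈ E) → f L ≤ g L) →
      sumL E w m f ≤ sumL E w m g
  | 0, f, g, h => h [] (by simp)
  | m + 1, f, g, h => by
      simp only [sumL]
      apply Finset.sum_le_sum
      intro e he
      apply mul_le_mul_of_nonneg_left _ (div_nonneg (hw e) (by norm_num))
      apply sumL_mono E hw m
      intro L hL
      apply h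
      intro e' he'
      rcases List.mem_cons.mp he' with rfl | h'
      · exact he
      · exact hL _ h'

lemma mom_eq_sumL (E : Finset (V × V)) (w : V × V → ℝ) :
    ∀ (m : ℕ) (p : V → ℤ), mom E w m p = sumL E w m (fun L => O L p)
  | 0, p => rfl
  | m + 1, p => by
      simp only [mom, T, sumL, O_cons]
      apply Finset.sum_congr rfl
      intro e _
      rw [mom_eq_sumL E w m, mom_eq_sumL E w m, sumL_add]

/-- The duplicated moment. -/
noncomputable def Y (E : Finset (V × V)) (w : V × V → ℝ) (m : ℕ) (A B : V → ℤ) : ℝ :=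
  ∑ ij ∈ antidiagonal m, (m.choose ij.1 : ℝ) * (mom E w ij.1 A * mom E w ij.2 B)

lemma Y_succ (E : Finset (V × V)) (w : V × V → ℝ) (m : ℕ) (A B : V → ℤ) :
    Y E w (m + 1) A B = ∑ e ∈ E, (w e / 2) *
      (Y E w m A (B - dip e) + Y E w m A (B + dip e)
        + Y E w m (A - dip e) B + Y E w m (A + dip e) B) := by
  unfold Y
  rw [Finset.sum_antidiagonal_choose_succ_mul (fun i j => mom E w i A * mom E w j B) m]
  -- rewrite both double sums
  have h1 : ∑ ij ∈ antidiagonal m, (m.choose ij.1 : ℝ) * (mom E w ij.1 A * mom E w (ij.2 + 1) B)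
      = ∑ e ∈ E, ((∑ ij ∈ antidiagonal m, (w e / 2) * ((m.choose ij.1 : ℝ) *
            (mom E w ij.1 A * mom E w ij.2 (B - dip e))))
          + ∑ ij ∈ antidiagonal m, (w e / 2) * ((m.choose ij.1 : ℝ) *
            (mom E w ij.1 A * mom E w ij.2 (B + dip e)))) := by
    simp only [← Finset.sum_add_distrib]
    rw [Finset.sum_comm]
    apply Finset.sum_congr rfl
    intro ij _
    simp only [mom, T]
    rw [Finset.mul_sum, Finset.mul_sum]
    apply Finset.sum_congr rfl
    intro e _
    ring
  have h2 : ∑ ij ∈ antidiagonal m, (m.choose ij.2 : ℝ) * (mom E w (ij.1 + 1) A * mom E w ij.2 B)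
      = ∑ e ∈ E, ((∑ ij ∈ antidiagonal m, (w e / 2) * ((m.choose ij.1 : ℝ) *
            (mom E w ij.1 (A - dip e) * mom E w ij.2 B)))
          + ∑ ij ∈ antidiagonal m, (w e / 2) * ((m.choose ij.1 : ℝ) *
            (mom E w ij.1 (A + dip e) * mom E w ij.2 B))) := by
    simp only [← Finset.sum_add_distrib]
    rw [Finset.sum_comm]
    apply Finset.sum_congr rfl
    intro ij hij
    have hc : m.choose ij.2 = m.choose ij.1 :=
      (Nat.choose_symm_of_eq_add (Finset.HasAntidiagonal.mem_antidiagonal.mp hij).symm).symm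
    rw [hc]
    simp only [mom, T]
    rw [Finset.sum_mul, Finset.mul_sum]
    apply Finset.sum_congr rfl
    intro e _
    ring
  rw [h1, h2, ← Finset.sum_add_distrib]
  apply Finset.sum_congr rfl
  intro e _
  simp only [mul_add, Finset.mul_sum]
  ring

/-- The switching identity. -/
theorem Y_eq_sumL (E : Finset (V × V)) (w : V × V → ℝ) :
    ∀ (m : ℕ) (A B : V → ℤ), Y E w m A B = sumL E w m (fun L => O L (A + B) * O L (A - B))
  | 0, A, B => by
      have hY : Y E w 0 A B = delta0 A * delta0 B := by simp [Y, mom]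
      rw [hY]
      simp only [sumL, O]
      by_cases hAB : A = 0 ∧ B = 0
      · obtain ⟨hA, hB⟩ := hAB
        simp [hA, hB, delta0_zero]
      · have hd : delta0 A * delta0 B = 0 := by
          by_cases hA : A = 0
          · have hB : B ≠ 0 := fun hB => hAB ⟨hA, hB⟩
            rw [delta0_of_ne hB, mul_zero]
          · rw [delta0_of_ne hA, zero_mul]
        rw [hd]
        by_cases h1 : A + B = 0
        · have h2 : A - B ≠ 0 := by
            intro h2
            apply hAB
            have hA : A = 0 := by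
              funext v
              have h3 := congrFun h1 v
              have h4 := congrFun h2 v
              simp only [Pi.add_apply, Pi.sub_apply, Pi.zero_apply] at h3 h4
              simp only [Pi.zero_apply]
              omega
            refine ⟨hA, ?_⟩
            rw [hA, zero_add] at h1; exact h1
          simp [h2]
        · simp [h1]
  | m + 1, A, B => by
      rw [Y_succ]
      simp only [sumL]
      apply Finset.sum_congr rfl
      intro e _
      congr 1
      simp only [Y_eq_sumL E w m, O_cons]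
      rw [← sumL_add, ← sumL_add, ← sumL_add]
      congr 1
      funext L
      have h1 : A + (B - dip e) = A + B - dip e := by abel
      have h2 : A - (B - dip e) = A - B + dip e := by abel
      have h3 : A + (B + dip e) = A + B + dip e := by abel
      have h4 : A - (B + dip e) = A - B - dip e := by abel
      have h5 : A - dip e + B = A + B - dip e := by abel
      have h6 : A - dip e - B = A - B - dip e := by abel
      have h7 : A + dip e + B = A + B + dip e := by abel
      have h8 : A + dip e - B = A - B + dip e := by abel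
      rw [h1, h2, h3, h4, h5, h6, h7, h8]
      ring

/-! ### The series -/

/-- The partition function with sources. -/
noncomputable def Z (E : Finset (V × V)) (w : V × V → ℝ) (p : V → ℤ) : ℝ :=
  ∑' m : ℕ, mom E w m p / (m.factorial : ℝ)

lemma summable_pow_fact (x : ℝ) : Summable (fun m : ℕ => x ^ m / (m.factorial : ℝ)) :=
  Real.summable_pow_div_factorial x

lemma summable_mom (E : Finset (V × V)) {w : V × V → ℝ} (hw : ∀ e, 0 ≤ w e) (p : V → ℤ) :
    Summable (fun m : ℕ => mom E w m p / (m.factorial : ℝ)) := by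
  apply Summable.of_nonneg_of_le _ _ (summable_pow_fact (wt E w))
  · intro m; exact div_nonneg (mom_nonneg E hw m p) (by positivity)
  · intro m
    exact div_le_div_of_nonneg_right (mom_le E hw m p) (by positivity)

lemma hasSum_Z (E : Finset (V × V)) {w : V × V → ℝ} (hw : ∀ e, 0 ≤ w e) (p : V → ℤ) :
    HasSum (fun m : ℕ => mom E w m p / (m.factorial : ℝ)) (Z E w p) :=
  (summable_mom E hw p).hasSum

lemma Z_nonneg (E : Finset (V × V)) {w : V × V → ℝ} (hw : ∀ e, 0 ≤ w e) (p : V → ℤ) :
    0 ≤ Z E w p :=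
  tsum_nonneg (fun m => div_nonneg (mom_nonneg E hw m p) (by positivity))

lemma Z_neg (E : Finset (V × V)) (w : V × V → ℝ) (p : V → ℤ) : Z E w (-p) = Z E w p := by
  unfold Z
  simp only [mom_neg]

lemma one_le_Z_zero (E : Finset (V × V)) {w : V × V → ℝ} (hw : ∀ e, 0 ≤ w e) :
    1 ≤ Z E w 0 := by
  have h := le_hasSum (hasSum_Z E hw 0) 0
    (fun m _ => div_nonneg (mom_nonneg E hw m 0) (by positivity))
  simpa [mom, delta0_zero] using h

lemma Z_zero_pos (E : Finset (V × V)) {w : V × V → ℝ} (hw : ∀ e, 0 ≤ w e) : 0 < Z E w 0 :=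
  lt_of_lt_of_le one_pos (one_le_Z_zero E hw)

/-- Double series re-indexed along antidiagonals. -/
lemma hasSum_antidiag {g : ℕ × ℕ → ℝ} (hg : Summable g) :
    HasSum (fun m => ∑ x ∈ antidiagonal m, g x) (∑' x, g x) := by
  have h1 := hg.hasSum
  have h2 := (Finset.HasAntidiagonal.sigmaAntidiagonalEquivProd (A := ℕ)).hasSum_iff.mpr h1
  have h3 := h2.sigma (g := fun m => ∑ x ∈ antidiagonal m, g x) (fun m => by
    have := hasSum_fintype (fun c : antidiagonal m => g c)
    rw [Finset.sum_coe_sort (antidiagonal m) g] at this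
    exact this)
  exact h3

/-- The product formula for the series. -/
lemma hasSum_Y (E : Finset (V × V)) {w : V × V → ℝ} (hw : ∀ e, 0 ≤ w e) (A B : V → ℤ) :
    HasSum (fun m : ℕ => Y E w m A B / (m.factorial : ℝ)) (Z E w A * Z E w B) := by
  have hA := summable_mom E hw A
  have hB := summable_mom E hw B
  have hA0 : ∀ m : ℕ, 0 ≤ mom E w m A / (m.factorial : ℝ) :=
    fun m => div_nonneg (mom_nonneg E hw m A) (by positivity)
  have hB0 : ∀ m : ℕ, 0 ≤ mom E w m B / (m.factorial : ℝ) :=
    fun m => div_nonneg (mom_nonneg E hw m B) (by positivity)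
  have hprod := Summable.mul_of_nonneg hA hB hA0 hB0
  have h1 := hasSum_antidiag hprod
  have h2 : (∑' x : ℕ × ℕ, (mom E w x.1 A / (x.1.factorial : ℝ)) *
      (mom E w x.2 B / (x.2.factorial : ℝ))) = Z E w A * Z E w B := by
    unfold Z
    exact (hA.tsum_mul_tsum hB hprod).symm
  rw [h2] at h1
  convert h1 using 2 with m
  unfold Y
  rw [Finset.sum_div]
  apply Finset.sum_congr rfl
  intro ij hij
  have hij' : ij.1 + ij.2 = m := Finset.HasAntidiagonal.mem_antidiagonal.mp hij
  have hc : ((m.choose ij.1 : ℕ) : ℝ) * (ij.1.factorial : ℝ) * (ij.2.factorial : ℝ)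
      = (m.factorial : ℝ) := by
    have := Nat.add_choose_mul_factorial_mul_factorial ij.1 ij.2
    rw [hij', ← Nat.choose_symm_of_eq_add hij'.symm] at this
    exact_mod_cast this
  have h3 : (ij.1.factorial : ℝ) ≠ 0 := by positivity
  have h4 : (ij.2.factorial : ℝ) ≠ 0 := by positivity
  have h5 : (m.factorial : ℝ) ≠ 0 := by positivity
  rw [← hc] at h5 ⊢
  have h6 : ((m.choose ij.1 : ℕ) : ℝ) ≠ 0 := left_ne_zero_of_mul (left_ne_zero_of_mul h5)
  field_simp

/-- The Ginibre-type inequality. -/
theorem Z_gram (E : Finset (V × V)) {w : V × V → ℝ} (hw : ∀ e, 0 ≤ w e) (A B : V → ℤ) :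
    2 * (Z E w A * Z E w B) ≤ Z E w 0 * Z E w (A + B) + Z E w 0 * Z E w (A - B) := by
  have h1 := (hasSum_Y E hw A B).mul_left 2
  have h2 := (hasSum_Y E hw 0 (A + B)).add (hasSum_Y E hw 0 (A - B))
  apply hasSum_le _ h1 h2
  intro m
  rw [← mul_div_assoc, ← add_div]
  apply div_le_div_of_nonneg_right _ (by positivity)
  rw [Y_eq_sumL, Y_eq_sumL, Y_eq_sumL, ← sumL_const_mul, ← sumL_add]
  apply sumL_mono E hw
  intro L _
  simp only [zero_add, zero_sub, O_neg]
  nlinarith [sq_nonneg (O L (A + B) - O L (A - B))]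

/-- The triple inequality. -/
theorem Z_triple (E : Finset (V × V)) {w : V × V → ℝ} (hw : ∀ e, 0 ≤ w e) (a b c : V) :
    Z E w (chg a - chg b) * Z E w (chg b - chg c) ≤ Z E w (chg a - chg c) * Z E w 0 := by
  apply hasSum_le _ (hasSum_Y E hw _ _) (hasSum_Y E hw _ _)
  intro m
  apply div_le_div_of_nonneg_right _ (by positivity)
  rw [Y_eq_sumL, Y_eq_sumL]
  apply sumL_mono E hw
  intro L _
  have h1 : chg a - chg b + (chg b - chg c) = chg a - chg c := by abel
  have h2 : chg a - chg b - (chg b - chg c) = chg a + chg c - (2:ℤ) • chg b := by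
    rw [two_smul]; abel
  have h3 : chg a - chg c + (0 : V → ℤ) = chg a - chg c := by abel
  have h4 : chg a - chg c - (0 : V → ℤ) = chg a - chg c := by abel
  rw [h1, h2, h3, h4]
  exact mul_le_mul_of_nonneg_left (O_triple _ L rfl a b c) (O_nonneg _ _)

/-- The Gaussian-type inequality.  `U` contains the source `s` and all the edge endpoints. -/
theorem Z_gauss (E : Finset (V × V)) {w : V × V → ℝ} (hw : ∀ e, 0 ≤ w e) (U : Finset V)
    (hU : ∀ e ∈ E, e.1 ∈ U ∧ e.2 ∈ U) (s : V) (hs : s ∈ U) (A : V → ℤ) :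
    Z E w A * Z E w 0 ≤
      ∑ u ∈ U, cc s A u * (Z E w (A - chg s + chg u) * Z E w (chg s - chg u)) := by
  have h1 := hasSum_Y E hw A 0
  have h2 := hasSum_sum (s := U) (fun u _ =>
    (hasSum_Y E hw (A - chg s + chg u) (chg s - chg u)).mul_left (cc s A u))
  apply hasSum_le _ h1 h2
  intro m
  simp only [← mul_div_assoc]
  rw [← Finset.sum_div]
  apply div_le_div_of_nonneg_right _ (by positivity)
  simp only [Y_eq_sumL]
  simp only [← sumL_const_mul]
  rw [← sumL_finset_sum]
  apply sumL_mono E hw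
  intro L hL
  have hq : ∀ u, A - chg s + chg u + (chg s - chg u) = A := by intro u; abel
  have hr : ∀ u, A - chg s + chg u - (chg s - chg u) = A - (2:ℤ) • chg s + (2:ℤ) • chg u := by
    intro u; rw [two_smul, two_smul]; abel
  simp only [hq, hr]
  have h3 : A + (0 : V → ℤ) = A := by abel
  have h4 : A - (0 : V → ℤ) = A := by abel
  rw [h3, h4]
  have h5 := O_star U _ L rfl (fun e he => hU e (hL e he)) s hs A
  have h6 := O_nonneg L A
  calc O L A * O L A
      ≤ O L A * ∑ u ∈ U, cc s A u * O L (A - (2:ℤ) • chg s + (2:ℤ) • chg u) :=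
        mul_le_mul_of_nonneg_left h5 h6
    _ = _ := by
      rw [Finset.mul_sum]
      apply Finset.sum_congr rfl
      intro u _
      ring

end Vale.Agent.Lib.P159
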